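import Crest.Agent.R320.F122.Pump_360
import Mathlib.Computability.DFA
import Mathlib.Computability.Language

/-!
# Row 320: regular languages are pump invariant, uniformly in the period (helper11)

`reg_pump`: `L` regular gives `m > 0` and `k0` with `u x^k v ∈ L ↔ u x^(k+m) v ∈ L` for all
`u x v` and all `k ≥ k0`.  `reg_pieces`: a regular language all of whose words are products of at most
`R` pieces `f ++ x^k` with `|f|, |x| ≤ B` has generalized star height at most one.
-/

set_option autoImplicit false

namespace Crest.Agent.R320.F122.RegBd_11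

open Crest.RegLang Crest.Agent.R320.F122.Hk_851 Crest.Agent.R320.F122.Pump_360

universe u

/-- uniform exponent of a finite monoid: `g ^ k = g ^ (k + m)` for all `k ≥ k0`. -/
theorem finite_monoid_exp (G : Type*) [Monoid G] [Finite G] :
    ∃ m k0 : ℕ, 0 < m ∧ ∀ (g : G) (k : ℕ), k0 ≤ k → g ^ k = g ^ (k + m) := by
  classical
  have := Fintype.ofFinite G
  have h : ∀ g : G, ∃ i d : ℕ, 0 < d ∧ g ^ i = g ^ (i + d) := by
    intro g
    obtain ⟨i, j, hij, he⟩ := Finite.exists_ne_map_eq_of_infinite (fun n : ℕ => g ^ n)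
    rcases lt_or_gt_of_ne hij with h | h
    · exact ⟨i, j - i, by omega, by rw [show i + (j - i) = j by omega]; exact he⟩
    · exact ⟨j, i - j, by omega, by rw [show j + (i - j) = i by omega]; exact he.symm⟩
  choose i d hd he using h
  have step : ∀ (g : G) (k : ℕ), i g ≤ k → g ^ k = g ^ (k + d g) := by
    intro g k hk
    obtain ⟨c, rfl⟩ := Nat.exists_eq_add_of_le hk
    rw [show i g + c + d g = (i g + d g) + c by omega, pow_add g (i g) c,
      pow_add g (i g + d g) c, ← he g]
  have mult : ∀ (g : G) (t k : ℕ), i g ≤ k → g ^ k = g ^ (k + t * d g) := by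
    intro g t
    induction t with
    | zero => intro k _; simp
    | succ t ih =>
      intro k hk
      rw [ih k hk, step g (k + t * d g) (by omega)]
      congr 1
      ring
  refine ⟨∏ g, d g, ∑ g, i g, Finset.prod_pos fun g _ => hd g, fun g k hk => ?_⟩
  have hik : i g ≤ k := le_trans (Finset.single_le_sum (fun g _ => Nat.zero_le (i g))
    (Finset.mem_univ g)) hk
  obtain ⟨t, ht⟩ := Finset.dvd_prod_of_mem d (Finset.mem_univ g)
  rw [ht, mul_comm (d g) t]
  exact mult g t k hik

variable {α : Type u}

/-- the transition of a word as an element of the monoid of self maps -/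
def en {σ : Type*} (M : DFA α σ) (x : List α) : Function.End σ := fun t => M.evalFrom t x

theorem evalFrom_pw {σ : Type*} (M : DFA α σ) (x : List α) (k : ℕ) (s : σ) :
    M.evalFrom s (pw x k) = (en M x ^ k) s := by
  induction k generalizing s with
  | zero => rw [pow_zero]; rfl
  | succ k ih =>
    rw [pw_succ, DFA.evalFrom_of_append, ih, pow_succ]
    rfl

/-- **uniform pumping for regular languages** -/
theorem reg_pump {L : Language α} (hL : L.IsRegular) :
    ∃ m k0 : ℕ, 0 < m ∧ ∀ (u x v : List α) (k : ℕ), k0 ≤ k →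
      (u ++ pw x k ++ v ∈ L ↔ u ++ pw x (k + m) ++ v ∈ L) := by
  obtain ⟨σ, hσ, M, rfl⟩ := hL
  have : Finite σ := Fintype.finite hσ
  have : Finite (Function.End σ) := inferInstanceAs (Finite (σ → σ))
  obtain ⟨m, k0, hm, h⟩ := finite_monoid_exp (Function.End σ)
  refine ⟨m, k0, hm, fun u x v k hk => ?_⟩
  have e : ∀ j : ℕ, M.eval (u ++ pw x j ++ v) =
      M.evalFrom ((en M x ^ j) (M.eval u)) v := by
    intro j
    unfold DFA.eval
    rw [DFA.evalFrom_of_append, DFA.evalFrom_of_append, evalFrom_pw]
  rw [DFA.mem_accepts, DFA.mem_accepts, e, e, ← h _ k hk]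

/-- **regular + boundedly many pieces `f ++ x^k`** gives height one -/
theorem reg_pieces [Finite α] {L : Language α} (hL : L.IsRegular) (R B : ℕ)
    (hpieces : ∀ w ∈ L, ∃ l : List (List α × List α × ℕ), l.length ≤ R ∧
      (∀ t ∈ l, t.1.length ≤ B ∧ t.2.1.length ≤ B) ∧ w = val l) :
    HL 1 L := by
  obtain ⟨m, k0, hm, h⟩ := reg_pump hL
  exact pump R B k0 m hm hpieces fun u x v k _ hk => h u x v k hk

/-- relative form: on the class of all words made of boundedly many pieces every regular language is
computed with one star. -/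
theorem reg_pieces_rel [Finite α] {L C : Language α} (hL : L.IsRegular) (hC : C.IsRegular) (R B : ℕ)
    (hpieces : ∀ w ∈ C, ∃ l : List (List α × List α × ℕ), l.length ≤ R ∧
      (∀ t ∈ l, t.1.length ≤ B ∧ t.2.1.length ≤ B) ∧ w = val l) :
    HL 1 (L ⊓ C) :=
  reg_pieces (Language.IsRegular.inf hL hC) R B fun w hw => hpieces w hw.2

end Crest.Agent.R320.F122.RegBd_11
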