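import Crest.Agent.R320.F122.Thr2_851
import Crest.Agent.R320.F122.RegBd_11

/-!
# Row 320: two tools for texts with long runs (helper11)

* `comp_pieces`: every finite automaton is computed at height one on the class of all words which are
  products of at most `R` pieces `f ++ x^k`, `|f|, |x| ≤ B`, `k` free.
* `nest_inf`: 851's level theorem with INFINITE right-legal languages `Rt p` of height `≤ k`
  (right-legal words which lead to the state `p`): unbounded right readings (runs counted modulo
  something inside the zone) are allowed at every level whose right readings have height `≤ k`.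
-/

set_option autoImplicit false

namespace Crest.Agent.R320.F122.CompR_11

open Crest.RegLang Crest.Agent.R320.F122.Hk_851 Crest.Agent.R320.F122.Thr_851 Crest.Agent.R320.F122.Pump_360
  Crest.Agent.R320.F122.RegBd_11

universe u v

variable {α : Type u}

/-- products of at most `R` pieces `f ++ x^k` -/
def Pieces (R B : ℕ) (w : List α) : Prop :=
  ∃ l : List (List α × List α × ℕ), l.length ≤ R ∧
    (∀ t ∈ l, t.1.length ≤ B ∧ t.2.1.length ≤ B) ∧ w = val l

/-- the transition of a word as a self map -/
def rn {Q : Type v} (δ : Q → α → Q) (x : List α) : Function.End Q := fun t => run δ t x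

theorem run_pw {Q : Type v} (δ : Q → α → Q) (x : List α) (k : ℕ) (q : Q) :
    run δ q (pw x k) = (rn δ x ^ k) q := by
  induction k generalizing q with
  | zero => rw [pow_zero]; rfl
  | succ k ih =>
    rw [pw_succ, run_append, ih, pow_succ]
    rfl

theorem run_pump {Q : Type v} [Finite Q] (δ : Q → α → Q) :
    ∃ m k0 : ℕ, 0 < m ∧ ∀ (q : Q) (u x v : List α) (k : ℕ), k0 ≤ k →
      run δ q (u ++ pw x k ++ v) = run δ q (u ++ pw x (k + m) ++ v) := by
  have : Finite (Function.End Q) := inferInstanceAs (Finite (Q → Q))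
  obtain ⟨m, k0, hm, h⟩ := finite_monoid_exp (Function.End Q)
  refine ⟨m, k0, hm, fun q u x v k hk => ?_⟩
  rw [run_append, run_append, run_append, run_append, run_pw, run_pw, ← h _ k hk]

/-- **words with boundedly many runs are computed with one star, for every finite automaton** -/
theorem comp_pieces [Finite α] {Q : Type v} [Finite Q] (δ : Q → α → Q) (R B : ℕ) :
    Comp 1 δ (fun _ w => Pieces R B w) := by
  obtain ⟨M, E, hM, h⟩ := run_pump δ
  let s : Set (List α × List α × ℕ) :=
    {w : List α | w.length ≤ B} ×ˢ ({w : List α | w.length ≤ B} ×ˢ {k : ℕ | k < E + M})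
  have hs : s.Finite := (List.finite_length_le α B).prod
    ((List.finite_length_le α B).prod (Set.finite_lt_nat _))
  let T : Q → Q → Set (List (List α × List α × ℕ)) := fun q q' =>
    {l | (l.length ≤ R ∧ ∀ t ∈ l, t ∈ s) ∧ run δ q (val l) = q'}
  have hT : ∀ q q', (T q q').Finite := fun q q' => (finite_lists hs R).subset fun l hl => hl.1
  have hp : ∀ q q', ∀ (u x v : List α) (k : ℕ), x.length ≤ B → E ≤ k →
      (u ++ pw x k ++ v ∈ ({w | run δ q w = q'} : Language α) ↔
        u ++ pw x (k + M) ++ v ∈ ({w | run δ q w = q'} : Language α)) := by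
    intro q q' u x v k _ hk
    change run δ q _ = q' ↔ run δ q _ = q'
    rw [h q u x v k hk]
  refine ⟨fun q q' => {w | ∃ l ∈ T q q', w ∈ Lam E M l}, fun q q' =>
    HL.biUnion (hT q q') fun l _ => HL_Lam E M l, ?_, ?_⟩
  · rintro q q' w ⟨c, ⟨⟨-, hc2⟩, hc3⟩, l, hcl, rfl⟩
    exact (pump_list (hp q q') hcl (fun t ht => (hc2 t ht).2.1) []).1 hc3
  · rintro q w ⟨l, h1, h2, rfl⟩
    obtain ⟨c, hc, hlen, hb⟩ := red_list E M B hM l h2
    refine ⟨c, ⟨⟨by rw [hlen]; exact h1, ?_⟩, ?_⟩, l, hc, rfl⟩
    · intro t ht
      exact ⟨(hb t ht).1, (hb t ht).2.1, (hb t ht).2.2⟩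
    · exact (pump_list (hp q (run δ q (val l))) hc (fun t ht => (hb t ht).2.1) []).2 rfl

section inf

variable {Q : Type v} (δ : Q → α → Q) (PL : Set Q) (Rt : Q → Language α)

/-- a cut: left state in `PL`, right-legal word `r` (leading to `p`) next -/
def Cut (q : Q) (w : List α) (i : ℕ) : Prop :=
  ∃ x r y p, w = x ++ (r ++ y) ∧ x.length = i ∧ r ∈ Rt p ∧ run δ q x ∈ PL

variable {δ PL Rt}

theorem Cut.of_take {q : Q} {x z : List α} {i : ℕ} (h : Cut δ PL Rt q x i) :
    Cut δ PL Rt q (x ++ z) i := by
  obtain ⟨a, r, y, p, rfl, h1, h2, h3⟩ := h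
  exact ⟨a, r, y ++ z, p, by simp, h1, h2, h3⟩

theorem Cut.lt (hne : ∀ p, [] ∉ Rt p) {q : Q} {w : List α} {i : ℕ} (h : Cut δ PL Rt q w i) :
    i < w.length := by
  obtain ⟨x, r, y, p, rfl, h1, h2, -⟩ := h
  have : 0 < r.length := List.length_pos_of_ne_nil fun h0 => hne p (h0 ▸ h2)
  simp only [List.length_append]
  omega

variable (δ PL Rt)

/-- words up to a cut state -/
def Ab (E : Q → Q → Language α) (q : Q) : Language α := {m | ∃ p ∈ PL, m ∈ E q p}

def Kb (E : Q → Q → Language α) : Language α := {m | ∃ p, m ∈ Rt p * Ab PL E p}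

def Bb (E : Q → Q → Language α) (q' : Q) : Language α := {m | ∃ p, m ∈ Rt p * E p q'}

variable {δ PL Rt}

/-- **Level theorem with infinite right-legal languages.** -/
theorem nest_inf [Finite Q] {k : ℕ} (hne : ∀ p, [] ∉ Rt p) (hRt : ∀ p, HL k (Rt p))
    (sound : ∀ q ∈ PL, ∀ p, ∀ r ∈ Rt p, run δ q r = p)
    (Gd : Q → List α → Prop)
    (hG : ∀ q x y, Gd q (x ++ y) → Gd q x ∧ Gd (run δ q x) y)
    (E : Q → Q → Language α) (hE : ∀ q q', HL k (E q q'))
    (hEs : ∀ q q', ∀ w ∈ E q q', run δ q w = q')
    (hEc : ∀ q w, Gd q w → (∀ i, ¬ Cut δ PL Rt q w i) → w ∈ E q (run δ q w)) :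
    Comp (k + 1) δ Gd := by
  have hA : ∀ q, HL k (Ab PL E q) := fun q => HL.biUnion (Set.toFinite PL) fun p _ => hE q p
  have hK : HL k (Kb PL Rt E) := HL.iUnion fun p => (hRt p).mul (hA p)
  have hB : ∀ q', HL k (Bb Rt E q') := fun q' => HL.iUnion fun p => (hRt p).mul (hE p q')
  refine ⟨fun q q' => E q q' + Ab PL E q * KStar.kstar (Kb PL Rt E) * Bb Rt E q', ?_, ?_, ?_⟩
  · intro q q'
    exact ((hE q q').mono (Nat.le_succ k)).add
      ((((hA q).mono (Nat.le_succ k)).mul hK.star).mul ((hB q').mono (Nat.le_succ k)))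
  · -- soundness
    have hstar : ∀ S : List (List α), (∀ m ∈ S, m ∈ Kb PL Rt E) → ∀ q ∈ PL,
        run δ q S.flatten ∈ PL := by
      intro S
      induction S with
      | nil => intro _ q hq; exact hq
      | cons m S ih =>
        intro hS q hq
        rw [List.flatten_cons, run_append]
        refine ih (fun m' hm' => hS m' (List.mem_cons_of_mem _ hm')) _ ?_
        obtain ⟨p, hm⟩ := hS m List.mem_cons_self
        obtain ⟨r, hr, e, ⟨p', hp', he⟩, rfl⟩ := Language.mem_mul.1 hm
        rw [run_append, sound q hq p r hr, hEs _ _ e he]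
        exact hp'
    rintro q q' w (hw | hw)
    · exact hEs q q' w hw
    · obtain ⟨am, ham, b, ⟨p, hb⟩, rfl⟩ := Language.mem_mul.1 hw
      obtain ⟨a, ⟨p0, hp0, ha⟩, m, hm, rfl⟩ := Language.mem_mul.1 ham
      obtain ⟨S, rfl, hS⟩ := Language.mem_kstar.1 hm
      obtain ⟨r, hr, e, he, rfl⟩ := Language.mem_mul.1 hb
      rw [run_append, run_append, run_append, hEs _ _ a ha,
        sound _ (hstar S hS p0 hp0) p r hr]
      exact hEs _ _ e he
  · -- completeness
    have main : ∀ (n : ℕ) (q : Q) (w : List α), w.length ≤ n → Gd q w →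
        w ∈ E q (run δ q w) + Ab PL E q * KStar.kstar (Kb PL Rt E) * Bb Rt E (run δ q w) := by
      intro n
      induction n with
      | zero =>
        intro q w hw hg
        refine Or.inl (hEc q w hg fun i hi => ?_)
        have := Cut.lt hne hi
        omega
      | succ n ih =>
        intro q w hw hg
        by_cases hc : ∃ i, Cut δ PL Rt q w i
        · classical
          right
          obtain ⟨x, r, y, p, e, h1, h2, h3⟩ := Nat.find_spec hc
          have hmin : ∀ i, i < x.length → ¬ Cut δ PL Rt q w i := fun i hi =>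
            Nat.find_min hc (by rw [← h1]; exact hi)
          have hg' := hG q x (r ++ y) (by rw [← e]; exact hg)
          have hx : x ∈ E q (run δ q x) := by
            refine hEc _ _ hg'.1 fun i hi => ?_
            have hl := Cut.lt hne hi
            have := Cut.of_take (z := r ++ y) hi
            rw [← e] at this
            exact hmin i hl this
          have hrp : run δ (run δ q x) r = p := sound _ h3 p r h2
          have hgy : Gd p y := by
            have := (hG _ r y hg'.2).2
            rwa [hrp] at this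
          have hr0 : 0 < r.length := List.length_pos_of_ne_nil fun h0 => hne p (h0 ▸ h2)
          have hly : y.length ≤ n := by
            have : w.length = x.length + (r.length + y.length) := by rw [e]; simp
            omega
          have hrun : run δ q w = run δ p y := by
            rw [e, run_append, run_append, hrp]
          have hI := ih p y hly hgy
          rw [hrun]
          rcases hI with hI | hI
          · refine Language.mem_mul.2 ⟨x, ?_, r ++ y, ⟨p, Language.mem_mul.2 ⟨r, h2, y, hI, rfl⟩⟩,
              e.symm⟩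
            exact Language.mem_mul.2 ⟨x, ⟨_, h3, hx⟩, [], Language.nil_mem_kstar _, by simp⟩
          · obtain ⟨am, ham, b, hb, hamb⟩ := Language.mem_mul.1 hI
            obtain ⟨a, ha, m, hm, ham'⟩ := Language.mem_mul.1 ham
            obtain ⟨S, rfl, hS⟩ := Language.mem_kstar.1 hm
            refine Language.mem_mul.2 ⟨x ++ (r ++ a ++ S.flatten), ?_, b, hb, ?_⟩
            · refine Language.mem_mul.2 ⟨x, ⟨_, h3, hx⟩, r ++ a ++ S.flatten, ?_, rfl⟩
              refine Language.mem_kstar.2 ⟨(r ++ a) :: S, by simp, ?_⟩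
              intro z hz
              rcases List.mem_cons.1 hz with rfl | hz
              · exact ⟨p, Language.mem_mul.2 ⟨r, h2, a, ha, rfl⟩⟩
              · exact hS z hz
            · rw [e, ← hamb, ← ham']; simp
        · exact Or.inl (hEc _ _ hg fun i hi => hc ⟨i, hi⟩)
    intro q w hw
    exact main w.length q w le_rfl hw

end inf

end Crest.Agent.R320.F122.CompR_11
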