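import Mathlib

/-!
Row 320 (S0495), piece (8) of post 12647: Golomb rulers at a given resolution and modulo large
moduli.  `C i = (s + 1) * 2 ^ (i + 1)`: different elements are more than `s` apart, different
ordered differences are more than `s` apart (as integers), and for moduli `m` larger than
`4 * C k + s` also modulo `m`.
-/

namespace Crest.Agent.R320.F122.G369

/-- the ruler -/
def rul (s i : ℕ) : ℕ := (s + 1) * 2 ^ (i + 1)

theorem rul_strictMono (s : ℕ) : StrictMono (rul s) := by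
  intro i j h
  unfold rul
  exact Nat.mul_lt_mul_of_pos_left (Nat.pow_lt_pow_right (by norm_num) (by omega)) (by omega)

theorem rul_gap (s : ℕ) {i j : ℕ} (h : i < j) : rul s i + s < rul s j := by
  have h1 : (2 : ℕ) ^ (i + 1) + 1 ≤ 2 ^ (j + 1) := Nat.pow_lt_pow_right (by norm_num) (by omega)
  unfold rul
  calc (s + 1) * 2 ^ (i + 1) + s < (s + 1) * 2 ^ (i + 1) + (s + 1) := by omega
    _ = (s + 1) * (2 ^ (i + 1) + 1) := by ring
    _ ≤ (s + 1) * 2 ^ (j + 1) := Nat.mul_le_mul_left _ h1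

theorem rul_pos (s i : ℕ) : 0 < rul s i := by unfold rul; positivity

/-- differences of powers of two are distinct -/
theorem pow_diff {i j i' j' : ℕ} (hij : i ≠ j) (hij' : i' ≠ j')
    (h : (2 : ℤ) ^ i - 2 ^ j = 2 ^ i' - 2 ^ j') : i = i' ∧ j = j' := by
  have key : ∀ a b c d : ℕ, a < b → c ≠ d → (2 : ℤ) ^ b - 2 ^ a = 2 ^ c - 2 ^ d →
      b = c ∧ a = d := by
    intro a b c d hab hcd he
    have hpos : (0 : ℤ) < 2 ^ b - 2 ^ a := by
      have : (2 : ℤ) ^ a < 2 ^ b := pow_lt_pow_right₀ (by norm_num) hab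
      linarith
    have hdc : d < c := by
      by_contra hle
      have hlt : c < d := by omega
      have : (2 : ℤ) ^ c < 2 ^ d := pow_lt_pow_right₀ (by norm_num) hlt
      linarith
    have hbc : b = c := by
      by_contra hne
      rcases Nat.lt_or_gt_of_ne hne with hlt | hgt
      · -- b < c
        have h1 : (2 : ℤ) ^ c - 2 ^ d ≥ 2 ^ (c - 1) := by
          have h2 : (2 : ℤ) ^ d ≤ 2 ^ (c - 1) := pow_le_pow_right₀ (by norm_num) (by omega)
          have h3 : (2 : ℤ) ^ c = 2 * 2 ^ (c - 1) := by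
            rw [← pow_succ']; congr 1; omega
          linarith
        have h4 : (2 : ℤ) ^ b ≤ 2 ^ (c - 1) := pow_le_pow_right₀ (by norm_num) (by omega)
        have h5 : (0 : ℤ) < 2 ^ a := by positivity
        linarith
      · have h1 : (2 : ℤ) ^ b - 2 ^ a ≥ 2 ^ (b - 1) := by
          have h2 : (2 : ℤ) ^ a ≤ 2 ^ (b - 1) := pow_le_pow_right₀ (by norm_num) (by omega)
          have h3 : (2 : ℤ) ^ b = 2 * 2 ^ (b - 1) := by
            rw [← pow_succ']; congr 1; omega
          linarith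
        have h4 : (2 : ℤ) ^ c ≤ 2 ^ (b - 1) := pow_le_pow_right₀ (by norm_num) (by omega)
        have h5 : (0 : ℤ) < 2 ^ d := by positivity
        linarith
    subst hbc
    have : (2 : ℤ) ^ a = 2 ^ d := by linarith
    exact ⟨rfl, pow_right_injective₀ (by norm_num) (by norm_num) this⟩
  rcases Nat.lt_or_gt_of_ne hij with hlt | hgt
  · have := key i j j' i' hlt (Ne.symm hij') (by linarith)
    exact ⟨this.2, this.1⟩
  · exact key j i i' j' hgt hij' h

/-- different ordered differences of the ruler are more than `s` apart -/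
theorem rul_golomb (s : ℕ) {i j i' j' : ℕ} (hij : i ≠ j) (hij' : i' ≠ j')
    (h : |((rul s i : ℤ) - rul s j) - ((rul s i' : ℤ) - rul s j')| ≤ s) : i = i' ∧ j = j' := by
  have he : ((rul s i : ℤ) - rul s j) - ((rul s i' : ℤ) - rul s j') =
      (s + 1) * ((2 ^ (i + 1) - 2 ^ (j + 1)) - (2 ^ (i' + 1) - 2 ^ (j' + 1))) := by
    unfold rul; push_cast; ring
  rw [he, abs_mul] at h
  have hs : |(s : ℤ) + 1| = s + 1 := abs_of_nonneg (by positivity)
  rw [hs] at h
  have h0 : |((2 : ℤ) ^ (i + 1) - 2 ^ (j + 1)) - (2 ^ (i' + 1) - 2 ^ (j' + 1))| < 1 := by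
    by_contra hge
    have hge' : (1 : ℤ) ≤ |((2 : ℤ) ^ (i + 1) - 2 ^ (j + 1)) - (2 ^ (i' + 1) - 2 ^ (j' + 1))| :=
      not_lt.mp hge
    have : ((s : ℤ) + 1) * 1 ≤ ((s : ℤ) + 1) *
        |((2 : ℤ) ^ (i + 1) - 2 ^ (j + 1)) - (2 ^ (i' + 1) - 2 ^ (j' + 1))| :=
      mul_le_mul_of_nonneg_left hge' (by positivity)
    linarith
  have h1 : ((2 : ℤ) ^ (i + 1) - 2 ^ (j + 1)) - (2 ^ (i' + 1) - 2 ^ (j' + 1)) = 0 :=
    Int.abs_lt_one_iff.mp h0
  have h2 := pow_diff (i := i + 1) (j := j + 1) (i' := i' + 1) (j' := j' + 1) (by omega) (by omega)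
    (by linarith)
  omega

/-- the same modulo every large modulus -/
theorem rul_golomb_mod (s k : ℕ) {m : ℕ} (hm : 4 * rul s k < m) {i j i' j' : ℕ}
    (hi : i ≤ k) (hj : j ≤ k) (hi' : i' ≤ k) (hj' : j' ≤ k) (hij : i ≠ j) (hij' : i' ≠ j')
    (h : (rul s i : ℤ) - rul s j ≡ (rul s i' : ℤ) - rul s j' [ZMOD m]) : i = i' ∧ j = j' := by
  have mono := (rul_strictMono s).monotone
  have b1 : (rul s i : ℤ) ≤ rul s k := by exact_mod_cast mono hi
  have b2 : (rul s j : ℤ) ≤ rul s k := by exact_mod_cast mono hj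
  have b3 : (rul s i' : ℤ) ≤ rul s k := by exact_mod_cast mono hi'
  have b4 : (rul s j' : ℤ) ≤ rul s k := by exact_mod_cast mono hj'
  have c1 : (0 : ℤ) ≤ rul s i := by positivity
  have c2 : (0 : ℤ) ≤ rul s j := by positivity
  have c3 : (0 : ℤ) ≤ rul s i' := by positivity
  have c4 : (0 : ℤ) ≤ rul s j' := by positivity
  have hm' : (4 : ℤ) * rul s k < m := by exact_mod_cast hm
  have hz : ((rul s i : ℤ) - rul s j) - ((rul s i' : ℤ) - rul s j') = 0 := by
    refine Int.eq_zero_of_abs_lt_dvd (m := (m : ℤ)) ?_ ?_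
    · have := (Int.modEq_iff_dvd.mp h.symm)
      simpa using this
    · rw [abs_lt]
      constructor <;> linarith
  apply rul_golomb s hij hij'
  rw [hz]
  simp

/-- For every `T` and every large modulus `m` at most one ordered pair `(i, j)`, `i ≠ j`, has
`m ∣ T + (C j - C i)`. -/
theorem rul_unique_shift (s k : ℕ) {m : ℕ} (hm : 4 * rul s k < m) (T : ℤ) {i j i' j' : ℕ}
    (hi : i ≤ k) (hj : j ≤ k) (hi' : i' ≤ k) (hj' : j' ≤ k) (hij : i ≠ j) (hij' : i' ≠ j')
    (h : (m : ℤ) ∣ T + (rul s j - rul s i)) (h' : (m : ℤ) ∣ T + (rul s j' - rul s i')) :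
    i = i' ∧ j = j' := by
  refine rul_golomb_mod s k hm hi hj hi' hj' hij hij' ?_
  rw [Int.modEq_iff_dvd]
  have := dvd_sub h h'
  have e : (T + ((rul s j : ℤ) - rul s i)) - (T + ((rul s j' : ℤ) - rul s i')) =
      ((rul s i' : ℤ) - rul s j') - ((rul s i : ℤ) - rul s j) := by ring
  rwa [e] at this

/-- If `m ∣ T` no pair `i ≠ j` has `m ∣ T + (C j - C i)` (elements are distinct mod `m`). -/
theorem rul_no_shift (s k : ℕ) {m : ℕ} (hm : 4 * rul s k < m) (T : ℤ) {i j : ℕ}
    (hi : i ≤ k) (hj : j ≤ k) (h0 : (m : ℤ) ∣ T) (h : (m : ℤ) ∣ T + (rul s j - rul s i)) :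
    i = j := by
  have mono := (rul_strictMono s).monotone
  have b1 : (rul s i : ℤ) ≤ rul s k := by exact_mod_cast mono hi
  have b2 : (rul s j : ℤ) ≤ rul s k := by exact_mod_cast mono hj
  have c1 : (0 : ℤ) ≤ rul s i := by positivity
  have c2 : (0 : ℤ) ≤ rul s j := by positivity
  have hm' : (4 : ℤ) * rul s k < m := by exact_mod_cast hm
  have hd : (m : ℤ) ∣ (rul s j : ℤ) - rul s i := (dvd_add_right h0).1 h
  have hz : (rul s j : ℤ) - rul s i = 0 := by
    refine Int.eq_zero_of_abs_lt_dvd hd ?_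
    rw [abs_lt]
    constructor <;> linarith
  have : rul s i = rul s j := by exact_mod_cast (by linarith : (rul s i : ℤ) = rul s j)
  exact (rul_strictMono s).injective this

/-- Resolution form: for every integer `θ` at most one ordered pair `(i, j)`, `i ≠ j`, has
`|θ - (C i - C j)| ≤ c` when the ruler has parameter `s = 2 c`. -/
theorem rul_unique_near (c : ℕ) (θ : ℤ) {i j i' j' : ℕ} (hij : i ≠ j) (hij' : i' ≠ j')
    (h : |θ - ((rul (2 * c) i : ℤ) - rul (2 * c) j)| ≤ c)
    (h' : |θ - ((rul (2 * c) i' : ℤ) - rul (2 * c) j')| ≤ c) : i = i' ∧ j = j' := by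
  refine rul_golomb (2 * c) hij hij' ?_
  have := abs_sub_le ((rul (2 * c) i : ℤ) - rul (2 * c) j) θ
    ((rul (2 * c) i' : ℤ) - rul (2 * c) j')
  rw [abs_sub_comm] at h
  push_cast at this h h' ⊢
  linarith

/-- Near zero: `|C i - C j| ≤ s` only for `i = j`. -/
theorem rul_near_zero (s : ℕ) {i j : ℕ} (h : |(rul s i : ℤ) - rul s j| ≤ s) : i = j := by
  rcases lt_trichotomy i j with hlt | heq | hgt
  · have := rul_gap s hlt
    rw [abs_le] at h
    have h1 : (rul s i : ℤ) + s < rul s j := by exact_mod_cast this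
    linarith [h.1]
  · exact heq
  · have := rul_gap s hgt
    rw [abs_le] at h
    have h1 : (rul s j : ℤ) + s < rul s i := by exact_mod_cast this
    linarith [h.2]

end Crest.Agent.R320.F122.G369
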