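import Mathlib
import Crest.Agent.R320.F122.Golomb_369

/-!
Row 320, post #13203 (helper693), item (4): the ruler for the bad totals of the grid gadget.
Pure arithmetic over the integers.  `Ms` = moduli of the names, `G i` = grids, `c i` = cell lengths,
`Am i` = left ends of the levels.  A total `T` is bad iff some `q` in `Ms` divides it or, for some
level, `T - Am (i+1)` is within `c i` of a multiple of `G (i+1)`.
The ruler is `X * 2^j`, `j < K`, with `X` as large as we like (so it is Golomb and spaced);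
for every total at most `|Ms| + m` ordered pairs of the ruler shift it to a bad total.
-/

set_option autoImplicit false

namespace Crest.Agent.R320.F122.Thin963

def BadT (Ms : Finset ℕ) (m : ℕ) (G c Am : ℕ → ℤ) (T : ℤ) : Prop :=
  (∃ q ∈ Ms, (q : ℤ) ∣ T) ∨
  (∃ i < m, ∃ e : ℤ, |e| ≤ c i ∧ G (i+1) ∣ T - Am (i+1) + e)

theorem diff_bound {K a b : ℕ} (ha : a < K) (hb : b < K) : |(2:ℤ)^a - 2^b| < 2^K := by
  have h1 : (2:ℤ)^a < 2^K := pow_lt_pow_right₀ (by norm_num) ha
  have h2 : (2:ℤ)^b < 2^K := pow_lt_pow_right₀ (by norm_num) hb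
  have h3 : (0:ℤ) < 2^a := by positivity
  have h4 : (0:ℤ) < 2^b := by positivity
  rw [abs_lt]; constructor <;> linarith

/-- at most one ordered pair is hit by a single modulus -/
theorem one_mod {K : ℕ} {q X : ℤ} (hq : 2^(K+1) ≤ q) (hX : q ∣ X - 1) (T : ℤ)
    {a b a' b' : ℕ} (ha : a < K) (hb : b < K) (ha' : a' < K) (hb' : b' < K) (hab : a ≠ b)
    (hab' : a' ≠ b') (h : q ∣ T + X * 2^a - X * 2^b) (h' : q ∣ T + X * 2^a' - X * 2^b') :
    a = a' ∧ b = b' := by
  apply Crest.Agent.R320.F122.G369.pow_diff hab hab'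
  have h1 : q ∣ X * (((2:ℤ)^a - 2^b) - (2^a' - 2^b')) := by
    have h0 := dvd_sub h h'
    have e0 : T + X * 2^a - X * 2^b - (T + X * 2^a' - X * 2^b') =
      X * (((2:ℤ)^a - 2^b) - (2^a' - 2^b')) := by ring
    rw [e0] at h0; exact h0
  have h2 : q ∣ (((2:ℤ)^a - 2^b) - (2^a' - 2^b')) := by
    have h3 : q ∣ (X - 1) * (((2:ℤ)^a - 2^b) - (2^a' - 2^b')) := Dvd.dvd.mul_right hX _
    have h0 := dvd_sub h1 h3
    have e0 : X * (((2:ℤ)^a - 2^b) - (2^a' - 2^b')) -
      (X - 1) * (((2:ℤ)^a - 2^b) - (2^a' - 2^b')) = (((2:ℤ)^a - 2^b) - (2^a' - 2^b')) := by ring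
    rw [e0] at h0; exact h0
  have h4 : |(((2:ℤ)^a - 2^b) - (2^a' - 2^b'))| < q := by
    have e1 := diff_bound ha hb
    have e2 := diff_bound ha' hb'
    have e3 := abs_sub ((2:ℤ)^a - 2^b) (2^a' - 2^b')
    have e4 : (2:ℤ)^(K+1) = 2 * 2^K := by rw [pow_succ]; ring
    linarith
  have := Int.eq_zero_of_abs_lt_dvd h2 h4
  linarith

/-- at most one ordered pair is hit by a single band -/
theorem one_band {K : ℕ} {Gi X L ci : ℤ} (hX : Gi ∣ X - L) (hL : 4 * ci ≤ L) (hci : 0 < ci)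
    (hbig : 2^(K+1) * L + 2 * ci < Gi) (T : ℤ)
    {a b a' b' : ℕ} (ha : a < K) (hb : b < K) (ha' : a' < K) (hb' : b' < K) (hab : a ≠ b)
    (hab' : a' ≠ b') {e e' : ℤ} (he : |e| ≤ ci) (he' : |e'| ≤ ci)
    (h : Gi ∣ T + X * 2^a - X * 2^b + e) (h' : Gi ∣ T + X * 2^a' - X * 2^b' + e') :
    a = a' ∧ b = b' := by
  apply Crest.Agent.R320.F122.G369.pow_diff hab hab'
  set d : ℤ := ((2:ℤ)^a - 2^b) - (2^a' - 2^b') with hd
  have hdb : |d| < 2^(K+1) := by
    have e1 := diff_bound ha hb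
    have e2 := diff_bound ha' hb'
    have e3 := abs_sub ((2:ℤ)^a - 2^b) (2^a' - 2^b')
    have e4 : (2:ℤ)^(K+1) = 2 * 2^K := by rw [pow_succ]; ring
    rw [hd]; linarith
  have h1 : Gi ∣ X * d + (e - e') := by
    have h0 := dvd_sub h h'
    have e0 : T + X * 2^a - X * 2^b + e - (T + X * 2^a' - X * 2^b' + e') =
      X * d + (e - e') := by rw [hd]; ring
    rw [e0] at h0; exact h0
  have h2 : Gi ∣ L * d + (e - e') := by
    have h3 : Gi ∣ (X - L) * d := Dvd.dvd.mul_right hX _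
    have h0 := dvd_sub h1 h3
    have e0 : X * d + (e - e') - (X - L) * d = L * d + (e - e') := by ring
    rw [e0] at h0; exact h0
  have hLpos : 0 < L := by linarith
  have hee : |e - e'| ≤ 2 * ci := by
    have := abs_sub e e'
    linarith
  have h4 : |L * d + (e - e')| < Gi := by
    have e5 : |L * d| ≤ L * 2^(K+1) := by
      rw [abs_mul, abs_of_pos hLpos]
      exact mul_le_mul_of_nonneg_left hdb.le hLpos.le
    have e6 := abs_add_le (L * d) (e - e')
    linarith
  have h5 := Int.eq_zero_of_abs_lt_dvd h2 h4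
  by_contra hne
  have hd0 : d ≠ 0 := by
    intro h0; apply hne; rw [hd] at h0; linarith
  have h6 : 1 ≤ |d| := Int.one_le_abs hd0
  have h7 : L ≤ |L * d| := by
    rw [abs_mul, abs_of_pos hLpos]
    nlinarith
  have h8 : |L * d| = |e - e'| := by
    have : L * d = -(e - e') := by linarith
    rw [this, abs_neg]
  linarith

open Classical in
/-- **thinness of the bad totals along the ruler `X * 2^j`.** -/
theorem thin (K m : ℕ) (Ms : Finset ℕ) (G c Am : ℕ → ℤ)
    (hMs : ∀ q ∈ Ms, q.Prime ∧ 2^(K+1) ≤ q)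
    (hcop : ∀ q ∈ Ms, IsCoprime (q:ℤ) (G m)) (hG : 0 < G m)
    (hdiv : ∀ i j, i ≤ j → G i ∣ G j) (hc : ∀ i, 0 < c i) (hGc : ∀ i, G i ∣ c i)
    (hgrow : ∀ i < m, 2^(K+4) * ∑ j ∈ Finset.range (i+1), c j ≤ G (i+1)) (N0 : ℤ) :
    ∃ X : ℤ, N0 ≤ X ∧ 0 < X ∧ ∀ T : ℤ,
      (((Finset.range K) ×ˢ (Finset.range K)).filter (fun p => p.1 ≠ p.2 ∧
        BadT Ms m G c Am (T + X * 2^p.1 - X * 2^p.2))).card ≤ Ms.card + m := by
  -- the modulus and the common residue
  set L : ℤ := 4 * ∑ j ∈ Finset.range m, c j with hLdef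
  have hprod : IsCoprime (∏ q ∈ Ms, (q:ℤ)) (G m) := IsCoprime.prod_left hcop
  obtain ⟨u, v, huv⟩ := hprod
  set A : ℤ := ∏ q ∈ Ms, (q:ℤ) with hA
  have hApos : 0 < A := by
    rw [hA]; exact Finset.prod_pos (fun q hq => by exact_mod_cast (hMs q hq).1.pos)
  set X0 : ℤ := v * G m + L * (u * A) with hX0
  have hAG : 0 < A * G m := mul_pos hApos hG
  set t : ℤ := |N0| + |X0| + 1 with ht
  refine ⟨X0 + t * (A * G m), ?_, ?_, ?_⟩
  · have h1 : t ≤ t * (A * G m) := by
      have : 0 ≤ t := by rw [ht]; positivity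
      have h2 : 1 ≤ A * G m := hAG
      nlinarith
    have h3 := le_abs_self N0
    have h4 := neg_abs_le X0
    linarith
  · have h1 : t ≤ t * (A * G m) := by
      have : 0 ≤ t := by rw [ht]; positivity
      have h2 : 1 ≤ A * G m := hAG
      nlinarith
    have h3 := abs_nonneg N0
    have h4 := neg_abs_le X0
    linarith
  intro T
  set X : ℤ := X0 + t * (A * G m) with hX
  have hXA : A ∣ X - 1 := by
    refine ⟨L * u - u + t * G m, ?_⟩
    rw [hX, hX0]
    linear_combination huv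
  have hXG : G m ∣ X - L := by
    refine ⟨v - L * v + t * A, ?_⟩
    rw [hX, hX0]
    linear_combination L * huv
  -- each single condition is met by at most one ordered pair
  have hsub : ((Finset.range K) ×ˢ (Finset.range K)).filter (fun p => p.1 ≠ p.2 ∧
        BadT Ms m G c Am (T + X * 2^p.1 - X * 2^p.2)) ⊆
      (Ms.biUnion (fun q => ((Finset.range K) ×ˢ (Finset.range K)).filter (fun p => p.1 ≠ p.2 ∧
        (q:ℤ) ∣ T + X * 2^p.1 - X * 2^p.2))) ∪
      ((Finset.range m).biUnion (fun i => ((Finset.range K) ×ˢ (Finset.range K)).filter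
        (fun p => p.1 ≠ p.2 ∧ ∃ e : ℤ, |e| ≤ c i ∧
          G (i+1) ∣ T + X * 2^p.1 - X * 2^p.2 - Am (i+1) + e))) := by
    intro p hp
    rw [Finset.mem_filter] at hp
    obtain ⟨hpK, hne, hbad⟩ := hp
    rw [Finset.mem_union]
    rcases hbad with ⟨q, hq, hqd⟩ | ⟨i, hi, e, he, hed⟩
    · left
      rw [Finset.mem_biUnion]
      exact ⟨q, hq, Finset.mem_filter.2 ⟨hpK, hne, hqd⟩⟩
    · right
      rw [Finset.mem_biUnion]
      exact ⟨i, Finset.mem_range.2 hi, Finset.mem_filter.2 ⟨hpK, hne, e, he, hed⟩⟩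
  refine (Finset.card_le_card hsub).trans ((Finset.card_union_le _ _).trans ?_)
  apply Nat.add_le_add
  · refine (Finset.card_biUnion_le).trans ?_
    refine (Finset.sum_le_card_nsmul Ms _ 1 ?_).trans (by simp)
    intro q hq
    rw [Finset.card_le_one]
    intro p hp p' hp'
    rw [Finset.mem_filter, Finset.mem_product, Finset.mem_range, Finset.mem_range] at hp hp'
    have hqX : (q:ℤ) ∣ X - 1 := (Finset.dvd_prod_of_mem _ hq).trans hXA
    have hq2 : (2:ℤ)^(K+1) ≤ q := by exact_mod_cast (hMs q hq).2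
    have := one_mod hq2 hqX T hp.1.1 hp.1.2 hp'.1.1 hp'.1.2 hp.2.1 hp'.2.1 hp.2.2 hp'.2.2
    exact Prod.ext this.1 this.2
  · refine (Finset.card_biUnion_le).trans ?_
    refine (Finset.sum_le_card_nsmul (Finset.range m) _ 1 ?_).trans (by simp)
    intro i hi
    rw [Finset.mem_range] at hi
    rw [Finset.card_le_one]
    intro p hp p' hp'
    rw [Finset.mem_filter, Finset.mem_product, Finset.mem_range, Finset.mem_range] at hp hp'
    obtain ⟨hpK, hne, e, he, hed⟩ := hp
    obtain ⟨hpK', hne', e', he', hed'⟩ := hp'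
    set Li : ℤ := 4 * ∑ j ∈ Finset.range (i+1), c j with hLi
    have hGL : G (i+1) ∣ L - Li := by
      rw [hLdef, hLi, ← mul_sub]
      apply Dvd.dvd.mul_left
      have : ∑ j ∈ Finset.range m, c j - ∑ j ∈ Finset.range (i+1), c j =
          ∑ j ∈ Finset.Ico (i+1) m, c j := by
        rw [Finset.sum_Ico_eq_sub _ (by omega : i + 1 ≤ m)]
      rw [this]
      apply Finset.dvd_sum
      intro j hj
      rw [Finset.mem_Ico] at hj
      exact (hdiv (i+1) j hj.1).trans (hGc j)
    have hXLi : G (i+1) ∣ X - Li := by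
      have h1 : G (i+1) ∣ X - L := (hdiv (i+1) m (by omega)).trans hXG
      have h0 := dvd_add h1 hGL
      have e0 : X - L + (L - Li) = X - Li := by ring
      rw [e0] at h0; exact h0
    have hci : c i ≤ ∑ j ∈ Finset.range (i+1), c j :=
      Finset.single_le_sum (f := c) (fun j _ => (hc j).le) (Finset.mem_range.2 (by omega))
    have hL4 : 4 * c i ≤ Li := by rw [hLi]; linarith
    have hg := hgrow i hi
    have hbig : 2^(K+1) * Li + 2 * c i < G (i+1) := by
      have hs : 0 < ∑ j ∈ Finset.range (i+1), c j := lt_of_lt_of_le (hc i) hci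
      have e1 : (2:ℤ)^(K+4) = 8 * 2^(K+1) := by
        rw [show K + 4 = (K+1) + 3 from rfl, pow_add]; ring
      have e2 : (2:ℤ) ≤ 2^(K+1) := by
        calc (2:ℤ) = 2^1 := by norm_num
          _ ≤ 2^(K+1) := pow_le_pow_right₀ (by norm_num) (by omega)
      rw [hLi]
      rw [e1] at hg
      nlinarith
    have hed1 : G (i+1) ∣ (T - Am (i+1)) + X * 2^p.1 - X * 2^p.2 + e := by
      have e0 : (T - Am (i+1)) + X * 2^p.1 - X * 2^p.2 + e =
        T + X * 2^p.1 - X * 2^p.2 - Am (i+1) + e := by ring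
      rw [e0]; exact hed
    have hed1' : G (i+1) ∣ (T - Am (i+1)) + X * 2^p'.1 - X * 2^p'.2 + e' := by
      have e0 : (T - Am (i+1)) + X * 2^p'.1 - X * 2^p'.2 + e' =
        T + X * 2^p'.1 - X * 2^p'.2 - Am (i+1) + e' := by ring
      rw [e0]; exact hed'
    have := one_band hXLi hL4 (hc i) hbig (T - Am (i+1)) hpK.1 hpK.2 hpK'.1 hpK'.2 hne hne'
      he he' hed1 hed1'
    exact Prod.ext this.1 this.2

end Crest.Agent.R320.F122.Thin963
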