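import Crest.Agent.R320.F122.Grid_899
import Crest.Agent.R320.F122.Thin_963
import Crest.Agent.R320.F122.Golomb_314

/-!
# Row 320: gadget 1 + ruler in closed form (helper122)

`gad`: for every finite monoid `S` and finite `V`: a spoil bound `R1`, then for every `K` places `c k`,
bad totals `BadT` (thin along the places), and on every alphabet the word gadget of helper899, with a
finite-state noise.
-/

set_option autoImplicit false

namespace Crest.Agent.R320.F122.FinG_122

open Crest.Agent.R320.F122.Grid_899 (G Am G_pos G_dvd Am_mono)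

theorem res {X N1 i i' j j' : ℕ} (hX : 2 * N1 ≤ X) (h1 : i' ≠ i) (h2 : j' ≠ j)
    (h3 : X * 2 ^ i + X * 2 ^ j' < X * 2 ^ j + X * 2 ^ i' + 2 * N1)
    (h4 : X * 2 ^ j + X * 2 ^ i' < X * 2 ^ i + X * 2 ^ j' + 2 * N1) : i = j := by
  have e : 2 ^ i + 2 ^ j' = 2 ^ j + 2 ^ i' := by
    rcases lt_trichotomy (2 ^ i + 2 ^ j') (2 ^ j + 2 ^ i') with h | h | h
    · exfalso
      have h5 : X * (2 ^ i + 2 ^ j' + 1) ≤ X * (2 ^ j + 2 ^ i') := Nat.mul_le_mul_left X h
      have h6 : X * (2 ^ i + 2 ^ j' + 1) = X * 2 ^ i + X * 2 ^ j' + X := by ring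
      have h7 : X * (2 ^ j + 2 ^ i') = X * 2 ^ j + X * 2 ^ i' := by ring
      linarith
    · exact h
    · exfalso
      have h5 : X * (2 ^ j + 2 ^ i' + 1) ≤ X * (2 ^ i + 2 ^ j') := Nat.mul_le_mul_left X h
      have h6 : X * (2 ^ j + 2 ^ i' + 1) = X * 2 ^ j + X * 2 ^ i' + X := by ring
      have h7 : X * (2 ^ i + 2 ^ j') = X * 2 ^ i + X * 2 ^ j' := by ring
      linarith
  rcases Golomb314.two_pow_add_two_pow e with ⟨a, -⟩ | ⟨a, -⟩
  · exact a
  · exact absurd a.symm h1

/-- bad totals -/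
def BadN {k : ℕ} (q : Fin k → ℕ) (κ m : ℕ) (T : ℕ) : Prop :=
  (∃ j, q j ∣ T) ∨ ∃ j, 1 ≤ j ∧ j ≤ m ∧
    ¬ ((∏ j, q j) * G κ (j - 1) ≤ (T - Am (∏ j, q j) κ j) % G κ j ∧
      (T - Am (∏ j, q j) κ j) % G κ j + (∏ j, q j) * G κ (j - 1) ≤ G κ j)

theorem badN_thin {k : ℕ} (q : Fin k → ℕ) (κ m : ℕ) {T : ℕ}
    (hT : Am (∏ j, q j) κ (m + 1) ≤ T) (h : BadN q κ m T) :
    Crest.Agent.R320.F122.Thin963.BadT (Finset.univ.image q) m (fun i => ((G κ i : ℕ) : ℤ))
      (fun i => (((∏ j, q j) * G κ i : ℕ) : ℤ)) (fun i => ((Am (∏ j, q j) κ i : ℕ) : ℤ)) (T : ℤ) := by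
  rcases h with ⟨j, hj⟩ | ⟨j, h1, h2, h3⟩
  · exact Or.inl ⟨q j, Finset.mem_image_of_mem _ (Finset.mem_univ _), by exact_mod_cast hj⟩
  · right
    obtain ⟨i, rfl⟩ : ∃ i, j = i + 1 := ⟨j - 1, by omega⟩
    have hA : Am (∏ j, q j) κ (i + 1) ≤ T := (Am_mono (by omega)).trans hT
    set Q := ∏ j, q j with hQ
    set r := (T - Am Q κ (i + 1)) % G κ (i + 1) with hr
    have hrl : r < G κ (i + 1) := Nat.mod_lt _ (G_pos _)
    have hdm := Nat.div_add_mod (T - Am Q κ (i + 1)) (G κ (i + 1))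
    rw [← hr] at hdm
    set d := (T - Am Q κ (i + 1)) / G κ (i + 1) with hd
    have hTz : (T : ℤ) - (Am Q κ (i + 1) : ℤ) = (G κ (i + 1) : ℤ) * d + r := by
      have : ((T - Am Q κ (i + 1) : ℕ) : ℤ) = (T : ℤ) - (Am Q κ (i + 1) : ℤ) := by
        push_cast [Nat.cast_sub hA]; ring
      rw [← this, ← hdm]; push_cast; ring
    simp only [Nat.add_sub_cancel] at h3
    refine ⟨i, by omega, ?_⟩
    by_cases hc : r < Q * G κ i
    · refine ⟨-(r : ℤ), ?_, ?_⟩
      · rw [abs_neg, abs_of_nonneg (by positivity)]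
        show (r : ℤ) ≤ ((Q * G κ i : ℕ) : ℤ)
        exact_mod_cast hc.le
      · refine ⟨(d : ℤ), ?_⟩
        show (T : ℤ) - (Am Q κ (i + 1) : ℤ) + -(r : ℤ) = (G κ (i + 1) : ℤ) * d
        rw [hTz]; ring
    · have hc2 : G κ (i + 1) < r + Q * G κ i := by
        by_contra h
        exact h3 ⟨by omega, by omega⟩
      refine ⟨(G κ (i + 1) : ℤ) - r, ?_, ?_⟩
      · have a1 : (r : ℤ) < G κ (i + 1) := by exact_mod_cast hrl
        have a2 : (G κ (i + 1) : ℤ) < r + ((Q * G κ i : ℕ) : ℤ) := by exact_mod_cast hc2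
        rw [abs_of_nonneg (by linarith)]
        show (G κ (i + 1) : ℤ) - r ≤ ((Q * G κ i : ℕ) : ℤ)
        linarith
      · refine ⟨(d : ℤ) + 1, ?_⟩
        show (T : ℤ) - (Am Q κ (i + 1) : ℤ) + ((G κ (i + 1) : ℤ) - r) = (G κ (i + 1) : ℤ) * (d + 1)
        rw [hTz]; ring

theorem sub_mod_congr {T T' A g : ℕ} (hT : A ≤ T) (hT' : A ≤ T') (h : T ≡ T' [MOD g]) :
    (T - A) % g = (T' - A) % g := by
  have : A + (T - A) ≡ A + (T' - A) [MOD g] := by
    rw [Nat.add_sub_cancel' hT, Nat.add_sub_cancel' hT']; exact h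
  exact Nat.ModEq.add_left_cancel' A this

theorem badN_periodic {k : ℕ} (q : Fin k → ℕ) (κ m : ℕ) {T T' : ℕ}
    (hT : Am (∏ j, q j) κ (m + 1) ≤ T) (hT' : Am (∏ j, q j) κ (m + 1) ≤ T')
    (h : T ≡ T' [MOD (∏ j, q j) * G κ m]) (hb : BadN q κ m T) : BadN q κ m T' := by
  rcases hb with ⟨j, hj⟩ | ⟨j, h1, h2, h3⟩
  · left
    refine ⟨j, ?_⟩
    have hd : q j ∣ (∏ j, q j) * G κ m :=
      (Finset.dvd_prod_of_mem q (Finset.mem_univ j)).mul_right _
    exact ((h.of_dvd hd).dvd_iff dvd_rfl).1 hj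
  · right
    refine ⟨j, h1, h2, ?_⟩
    have hd : G κ j ∣ (∏ j, q j) * G κ m := (G_dvd h2).mul_left _
    have hA : Am (∏ j, q j) κ j ≤ Am (∏ j, q j) κ (m + 1) := Am_mono (by omega)
    rw [← sub_mod_congr (hA.trans hT) (hA.trans hT') (h.of_dvd hd)]
    exact h3

theorem exists_primes (k B : ℕ) : ∃ q : Fin k → ℕ, Function.Injective q ∧
    ∀ j, (q j).Prime ∧ B ≤ q j ∧ Odd (q j) := by
  refine ⟨fun j => Nat.nth Nat.Prime (B + 2 + j), ?_, fun j => ?_⟩
  · intro a b h
    have := (Nat.nth_strictMono Nat.infinite_setOfPred_prime).injective h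
    exact Fin.ext (by omega)
  · have hp : (Nat.nth Nat.Prime (B + 2 + j)).Prime := Nat.prime_nth_prime _
    have hle : B + 2 + j ≤ Nat.nth Nat.Prime (B + 2 + j) :=
      (Nat.nth_strictMono Nat.infinite_setOfPred_prime).le_apply
    refine ⟨hp, le_trans (by omega) hle, hp.odd_of_ne_two ?_⟩
    intro h2
    have hs : Nat.nth Nat.Prime 0 < Nat.nth Nat.Prime (B + 2 + j) :=
      Nat.nth_strictMono Nat.infinite_setOfPred_prime (by omega)
    have hp0 : (Nat.nth Nat.Prime 0).Prime := Nat.prime_nth_prime _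
    have := hp0.two_le
    omega

theorem grow {K Q κ : ℕ} (h : 1 + 2 ^ (K + 4) * Q ≤ 2 ^ κ) (i : ℕ) :
    2 ^ (K + 4) * ∑ j ∈ Finset.range (i + 1), Q * G κ j ≤ G κ (i + 1) := by
  have hG : ∀ i, G κ (i + 1) = 2 ^ κ * G κ i := by
    intro i
    unfold G
    rw [← pow_add]; congr 1; ring
  induction i with
  | zero =>
    have : G κ 0 = 1 := by unfold G; simp
    rw [Finset.sum_range_one, hG, this]
    nlinarith
  | succ i ih =>
    rw [Finset.sum_range_succ, Nat.mul_add, hG (i + 1)]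
    calc 2 ^ (K + 4) * ∑ j ∈ Finset.range (i + 1), Q * G κ j + 2 ^ (K + 4) * (Q * G κ (i + 1))
        ≤ G κ (i + 1) + 2 ^ (K + 4) * (Q * G κ (i + 1)) := Nat.add_le_add_right ih _
      _ = (1 + 2 ^ (K + 4) * Q) * G κ (i + 1) := by ring
      _ ≤ 2 ^ κ * G κ (i + 1) := Nat.mul_le_mul_right _ h


theorem take_congr {α : Type*} {X X' : List α} {K j : ℕ} (h : X.take K = X'.take K) (hj : j ≤ K) :
    X.take j = X'.take j := by
  have := congrArg (List.take j) h
  rwa [List.take_take, List.take_take, min_eq_left hj] at this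

theorem drop_split {α : Type*} {X : List α} {K j : ℕ} (hX : K ≤ X.length) (hj : j ≤ K) :
    X.drop j = (X.take K).drop j ++ X.drop K := by
  conv_lhs => rw [← List.take_append_drop K X]
  rw [List.drop_append_of_le_length (by rw [List.length_take]; omega)]

theorem drop_congr {α S : Type*} [Monoid S] {phi : List α → S}
    (hphi : ∀ u v, phi (u ++ v) = phi u * phi v) {X X' : List α} {K j : ℕ}
    (hX : K ≤ X.length) (hX' : K ≤ X'.length) (h : X.take K = X'.take K)
    (hd : phi (X.drop K) = phi (X'.drop K)) (hj : j ≤ K) : phi (X.drop j) = phi (X'.drop j) := by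
  rw [drop_split hX hj, drop_split hX' hj, hphi, hphi, h, hd]

theorem gad (S V : Type) [Monoid S] [Finite S] [AddCommGroup V] [Finite V] (act : V → S → V) :
    ∃ R1 : ℕ, ∀ K : ℕ, ∃ (N1 Md La : ℕ) (c : ℕ → ℕ) (BadT : ℕ → Prop),
      0 < Md ∧ N1 ≤ La ∧ (∀ i j, i < j → j < K → c i < c j) ∧
      (∀ i i' j j', i < K → i' < K → j < K → j' < K → i' ≠ i → j' ≠ j →
        c i + c j' < c j + c i' + 2 * N1 → c j + c i' < c i + c j' + 2 * N1 → i = j) ∧
      (∀ T : ℕ, (∀ k, k < K → c k ≤ T) → ∀ I : Finset ℕ,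
        (∀ k ∈ I, k < K ∧ ∃ k', k' < K ∧ k' ≠ k ∧ BadT (T + c k' - c k)) → I.card ≤ R1) ∧
      (∀ T T', La ≤ T → La ≤ T' → T ≡ T' [MOD Md] → BadT T → BadT T') ∧
      ∀ (α : Type) (phi : List α → S), (∀ u v, phi (u ++ v) = phi u * phi v) →
        ∃ (lam rho : List α → Option V) (nu : List α → V),
          (∀ P v, lam P = some v → P.length ≤ N1) ∧
          (∀ P Q v b, lam P = some v → rho Q = some b → b = act v (phi (P ++ Q)) + nu (P ++ Q)) ∧
          (∀ Y : List α, La ≤ Y.length → ¬ BadT Y.length → ∀ v, ∃ P Q, Y = P ++ Q ∧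
            lam P = some v ∧ (rho Q).isSome) ∧
          (∀ Y Y' : List α, La ≤ Y.length → La ≤ Y'.length → Y.take La = Y'.take La →
            phi (Y.drop La) = phi (Y'.drop La) → Y.length ≡ Y'.length [MOD Md] →
            nu Y = nu Y') := by
  classical
  obtain ⟨k, m, H⟩ := Grid_899.grid_gadget_reg S V act
  refine ⟨k + m, fun K => ?_⟩
  obtain ⟨q, hinj, hq⟩ := exists_primes k (2 ^ (K + 1))
  set Q := ∏ j, q j with hQ
  have hQpos : 0 < Q := Finset.prod_pos fun j _ => (hq j).1.pos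
  set κ := K + 5 + Q with hκ
  have hgr : 1 + 2 ^ (K + 4) * Q ≤ 2 ^ κ := by
    have h1 : Q < 2 ^ Q := Nat.lt_two_pow_self
    have h2 : 2 ^ κ = 2 ^ (K + 5) * 2 ^ Q := by rw [hκ, pow_add]
    have h3 : 2 ^ (K + 5) = 2 * 2 ^ (K + 4) := by rw [pow_succ]; ring
    rw [h2, h3]
    have h4 : 1 ≤ 2 ^ (K + 4) := Nat.one_le_two_pow
    nlinarith [Nat.mul_le_mul_left (2 ^ (K + 4)) h1.le]
  set A := Am Q κ (m + 1) with hA
  obtain ⟨X, hX0, hXpos, hthin⟩ := Crest.Agent.R320.F122.Thin963.thin K m (Finset.univ.image q) (fun i => ((G κ i : ℕ) : ℤ))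
    (fun i => ((Q * G κ i : ℕ) : ℤ)) (fun i => ((Am Q κ i : ℕ) : ℤ))
    (by
      intro p hp
      obtain ⟨j, -, rfl⟩ := Finset.mem_image.1 hp
      exact ⟨(hq j).1, by exact_mod_cast (hq j).2.1⟩)
    (by
      intro p hp
      obtain ⟨j, -, rfl⟩ := Finset.mem_image.1 hp
      rw [Nat.isCoprime_iff_coprime]
      unfold G
      exact Nat.Coprime.pow_right _ ((hq j).2.2.coprime_two_right))
    (by exact_mod_cast G_pos (κ := κ) m)
    (by intro i j hij; exact_mod_cast G_dvd (κ := κ) hij)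
    (by intro i; exact_mod_cast Nat.mul_pos hQpos (G_pos (κ := κ) i))
    (by intro i; exact_mod_cast Dvd.intro_left Q rfl)
    (by intro i _; exact_mod_cast grow (K := K) (Q := Q) (κ := κ) hgr i)
    ((2 * A + 1 : ℕ) : ℤ)
  obtain ⟨x, rfl⟩ := Int.eq_ofNat_of_zero_le hXpos.le
  have hx0 : 2 * A + 1 ≤ x := by exact_mod_cast hX0
  refine ⟨A, Q * G κ m, 2 * A, fun i => x * 2 ^ i, BadN q κ m, Nat.mul_pos hQpos (G_pos _),
    by omega, ?_, ?_, ?_, ?_, ?_⟩
  · intro i j hij _
    exact Nat.mul_lt_mul_of_pos_left (Nat.pow_lt_pow_right (by norm_num) hij) (by omega)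
  · intro i i' j j' _ _ _ _ h1 h2 h3 h4
    exact res (X := x) (N1 := A) (by omega) h1 h2 h3 h4
  · intro T hT I hI
    have hbase := hthin (T : ℤ)
    have hcard : (Finset.univ.image q).card ≤ k := by
      refine Finset.card_image_le.trans ?_
      simp
    refine le_trans ?_ (hbase.trans (Nat.add_le_add_right hcard m))
    have hch : ∀ a : I, ∃ k', k' < K ∧ k' ≠ a.1 ∧ BadN q κ m (T + x * 2 ^ k' - x * 2 ^ a.1) :=
      fun a => (hI a.1 a.2).2
    choose g hg1 hg2 hg3 using hch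
    rw [← Finset.card_attach]
    refine Finset.card_le_card_of_injOn (fun a => (g a, a.1)) ?_ ?_
    · intro a _
      have ha := (hI a.1 a.2).1
      have h1 : x * 2 ^ a.1 ≤ T := hT _ ha
      have h2 : x ≤ x * 2 ^ (g a) := Nat.le_mul_of_pos_right _ (by positivity)
      have h3 := badN_thin q κ m (T := T + x * 2 ^ (g a) - x * 2 ^ a.1)
        (by show A ≤ _; omega) (hg3 a)
      have e : ((T + x * 2 ^ (g a) - x * 2 ^ a.1 : ℕ) : ℤ) =
          (T : ℤ) + (x : ℤ) * 2 ^ (g a) - (x : ℤ) * 2 ^ a.1 := by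
        rw [Nat.cast_sub (by omega)]; push_cast; ring
      rw [e] at h3
      simp only [Finset.coe_filter, Finset.mem_product, Finset.mem_range, Set.mem_setOf_eq]
      exact ⟨⟨hg1 a, ha⟩, hg2 a, h3⟩
    · intro a _ b _ h
      exact Subtype.ext (Prod.mk.inj h).2
  · intro T T' h1 h2 h3 h4
    exact badN_periodic q κ m (by show A ≤ _; omega) (by show A ≤ _; omega) h3 h4
  · intro α phi hphi
    obtain ⟨lam, rho, nu, g1, g2, g3, g4, g5⟩ := H q (fun j => (hq j).2.2)
      (fun i j hij => (Nat.coprime_primes (hq i).1 (hq j).1).2 fun h => hij (hinj h)) κ α phi hphi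
    have hAm : Am Q κ m ≤ A := Am_mono (by omega)
    let SP : List α → V → V → Prop := fun Y v b => ∃ P Q, Y = P ++ Q ∧ lam P = some v ∧
      rho Q = some b
    have hSPv : ∀ Y v b, SP Y v b → b - act v (phi Y) = nu Y := by
      rintro Y v b ⟨P, Q, rfl, hP, hQ'⟩
      rw [g3 P Q v b hP hQ']; abel
    let nu' : List α → V := fun Y => if ∃ v b, SP Y v b then nu Y else 0
    have hnu' : ∀ Y v b, SP Y v b → nu' Y = nu Y := by
      intro Y v b h
      simp only [nu']
      rw [if_pos ⟨v, b, h⟩]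
    refine ⟨lam, rho, nu', fun P v h => ((g1 P v h).1.le.trans hAm), ?_, ?_, ?_⟩
    · intro P Q' v b h1 h2
      rw [hnu' _ v b ⟨P, Q', rfl, h1, h2⟩]
      exact g3 P Q' v b h1 h2
    · intro Y hY hb v
      refine g4 Y hY (fun j hj => hb (Or.inl ⟨j, hj⟩)) (fun j h1 h2 => ?_) v
      by_contra hn
      exact hb (Or.inr ⟨j, h1, h2, hn⟩)
    · have key : ∀ Y Y' : List α, 2 * A ≤ Y.length → 2 * A ≤ Y'.length →
          Y.take (2 * A) = Y'.take (2 * A) → phi (Y.drop (2 * A)) = phi (Y'.drop (2 * A)) →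
          Y.length ≡ Y'.length [MOD Q * G κ m] → ∀ v b, SP Y v b → SP Y' v b := by
        rintro Y Y' hY hY' ht hd hm v b ⟨P, R, rfl, hP, hR⟩
        have hPl := (g1 P v hP).1.le.trans hAm
        have hP' : P = Y'.take P.length := by
          have := take_congr ht (j := P.length) (by omega)
          rw [← this, List.take_left]
        have hY'e : Y' = P ++ Y'.drop P.length := by
          conv_lhs => rw [← List.take_append_drop P.length Y', ← hP']
        refine ⟨P, Y'.drop P.length, hY'e, hP, ?_⟩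
        rw [← hR]
        rw [List.length_append] at hY
        refine g5 _ _ ?_ ?_ ?_ ?_ ?_
        · show A ≤ _
          rw [List.length_drop]; omega
        · show A ≤ _
          omega
        · show (Y'.drop P.length).take A = R.take A
          have h1 := take_congr ht (j := P.length + A) (by omega)
          rw [hY'e, List.take_length_add_append, List.take_length_add_append] at h1
          exact (List.append_cancel_left h1).symm
        · show phi ((Y'.drop P.length).drop A) = phi (R.drop A)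
          have h1 := drop_congr hphi (by rw [List.length_append]; exact hY) hY' ht hd
            (j := P.length + A) (by omega)
          rw [List.drop_drop, ← h1, ← List.drop_drop, List.drop_left]
        · have h1 : P.length + R.length ≡ P.length + (Y'.drop P.length).length
              [MOD Q * G κ m] := by
            rw [List.length_drop, Nat.add_sub_cancel' (by omega), ← List.length_append]
            exact hm
          exact (Nat.ModEq.add_left_cancel' _ h1).symm
      intro Y Y' hY hY' ht hd hm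
      have hphiY : phi Y = phi Y' := by
        have := drop_congr hphi hY hY' ht hd (j := 0) (by omega)
        simpa using this
      by_cases hs : ∃ v b, SP Y v b
      · obtain ⟨v, b, h⟩ := hs
        have h' := key Y Y' hY hY' ht hd hm v b h
        rw [hnu' _ _ _ h, hnu' _ _ _ h', ← hSPv _ _ _ h, ← hSPv _ _ _ h', hphiY]
      · have hs' : ¬ ∃ v b, SP Y' v b := by
          rintro ⟨v, b, h⟩
          exact hs ⟨v, b, key Y' Y hY' hY ht.symm hd.symm hm.symm v b h⟩
        simp only [nu']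
        rw [if_neg hs, if_neg hs']

end Crest.Agent.R320.F122.FinG_122
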