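import Crest.Agent.R320.F122.RegBd_11
import Crest.Agent.R320.F122.CompR_11

/-! P4 for the natural chain rule (693's design): block code `XX`, `hXT` and `hNP` in `HL 1`. -/

set_option autoImplicit false

namespace Crest.Agent.R320.F122.P4N_211

open Crest.Agent.R320.F122.Hk_851 Crest.Agent.R320.F122.Pump_360 Crest.Agent.R320.F122.RegBd_11
open Crest.Agent.R320.F122.CompR_11 (Pieces)

universe u

variable {α : Type u}

/-- a finite state function which is a right congruence recognises regular languages -/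
theorem reg_of_cong {Q : Type*} [Finite Q] (σ : List α → Q)
    (hσ : ∀ w w' a, σ w = σ w' → σ (w ++ [a]) = σ (w' ++ [a])) (L : Language α)
    (hL : ∀ w w', σ w = σ w' → (w ∈ L → w' ∈ L)) : L.IsRegular := by
  classical
  let rep : Q → List α := fun q => if h : ∃ w, σ w = q then h.choose else []
  have hrep : ∀ w, σ (rep (σ w)) = σ w := by
    intro w
    have h : ∃ w', σ w' = σ w := ⟨w, rfl⟩
    simp only [rep, dif_pos h]
    exact h.choose_spec
  let M : DFA α Q :=
    { step := fun q a => σ (rep q ++ [a])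
      start := σ []
      accept := {q | ∃ w ∈ L, σ w = q} }
  have hev : ∀ w, M.eval w = σ w := by
    intro w
    induction w using List.reverseRecOn with
    | nil => rfl
    | append_singleton w a ih =>
      rw [DFA.eval_append_singleton, ih]
      exact hσ _ _ a (hrep w)
  have hacc : M.accepts = L := by
    ext w
    rw [DFA.mem_accepts, hev]
    constructor
    · rintro ⟨w', hw', h⟩
      exact hL _ _ h hw'
    · intro h
      exact ⟨w, h, rfl⟩
  have := Fintype.ofFinite Q
  exact Language.isRegular_iff.2 ⟨Q, inferInstance, M, hacc⟩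

/-- the block code of the natural chain rule -/
def XX (Wo : List α → Prop) (z : ℕ) : Set (List α) :=
  {X | z ≤ X.length ∧ Wo X ∧ ∀ t, z ≤ t → t < X.length → ¬ Wo (X.take t)}

theorem nil_not_mem {Wo : List α → Prop} {z : ℕ} (hz : 0 < z) : [] ∉ XX Wo z := by
  rintro ⟨h, -⟩
  simp at h
  omega

theorem prefix_code {Wo : List α → Prop} {z : ℕ} : ∀ X ∈ XX Wo z, ∀ Y, X ++ Y ∈ XX Wo z → Y = [] := by
  intro X hX Y hY
  by_contra h
  have hl : 0 < Y.length := List.length_pos_of_ne_nil h
  refine hY.2.2 X.length hX.1 (by simp; omega) ?_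
  rw [List.take_left]
  exact hX.2.1

/-- the state: first `K` letters, last `n` letters, flag, value, length mod `M` -/
def Le (α : Type u) (K : ℕ) := {l : List α // l.length ≤ K}

instance [Finite α] (K : ℕ) : Finite (Le α K) :=
  (List.finite_length_le α K).to_subtype

/-- last `n` letters -/
def lst (n : ℕ) (w : List α) : List α := w.drop (w.length - n)

theorem lst_len (n : ℕ) (w : List α) : (lst n w).length ≤ n := by
  unfold lst
  rw [List.length_drop]
  omega

theorem lst_append (n : ℕ) (w : List α) (a : α) : lst n (w ++ [a]) = lst n (lst n w ++ [a]) := by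
  rcases le_or_gt w.length n with h | h
  · have : lst n w = w := by
      unfold lst
      rw [show w.length - n = 0 by omega, List.drop_zero]
    rw [this]
  · have e : w ++ [a] = w.take (w.length - n) ++ (lst n w ++ [a]) := by
      unfold lst
      rw [← List.append_assoc, List.take_append_drop]
    have hl : (lst n w).length = n := by
      unfold lst
      rw [List.length_drop]
      omega
    have h1 : (w.take (w.length - n)).length = w.length - n := by
      rw [List.length_take]
      omega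
    conv_lhs => rw [e]
    unfold lst at hl ⊢
    rw [List.length_append, h1, List.length_append, hl, List.length_singleton, List.drop_append, h1,
      List.drop_of_length_le (by rw [h1]; omega), List.nil_append]
    congr 1
    omega

theorem wo_lst {Wo : List α → Prop} {n : ℕ}
    (loc : ∀ P Q : List α, n ≤ Q.length → (Wo (P ++ Q) ↔ Wo Q)) (w : List α) :
    Wo w ↔ Wo (lst n w) := by
  unfold lst
  rcases le_or_gt w.length n with h | h
  · rw [show w.length - n = 0 by omega, List.drop_zero]
  · conv_lhs => rw [← List.take_append_drop (w.length - n) w]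
    exact loc _ _ (by rw [List.length_drop]; omega)

/-- "a wall at some place `t ∈ [z, |w|)`" -/
def Fl (Wo : List α → Prop) (z : ℕ) (w : List α) : Prop := ∃ t, z ≤ t ∧ t < w.length ∧ Wo (w.take t)

theorem Fl_append {Wo : List α → Prop} {z : ℕ} (w : List α) (a : α) :
    Fl Wo z (w ++ [a]) ↔ Fl Wo z w ∨ (z ≤ w.length ∧ Wo w) := by
  constructor
  · rintro ⟨t, h1, h2, h3⟩
    rw [List.length_append, List.length_singleton] at h2
    rcases Nat.lt_or_ge t w.length with h | h
    · refine Or.inl ⟨t, h1, h, ?_⟩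
      rwa [List.take_append_of_le_length h.le] at h3
    · have : t = w.length := by omega
      subst this
      rw [List.take_left] at h3
      exact Or.inr ⟨h1, h3⟩
  · rintro (⟨t, h1, h2, h3⟩ | ⟨h1, h2⟩)
    · refine ⟨t, h1, by rw [List.length_append]; omega, ?_⟩
      rwa [List.take_append_of_le_length h2.le]
    · refine ⟨w.length, h1, by rw [List.length_append, List.length_singleton]; omega, ?_⟩
      rwa [List.take_left]

/-- the state function -/
noncomputable def st {S : Type*} (Wo : List α → Prop) (z n K M : ℕ) (hM : 0 < M) (φ : List α → S)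
    (w : List α) : Le α K × Le α n × Prop × S × Fin M :=
  (⟨w.take K, by rw [List.length_take]; omega⟩, ⟨lst n w, lst_len n w⟩, Fl Wo z w, φ w,
    ⟨w.length % M, Nat.mod_lt _ hM⟩)

theorem st_eq {S : Type*} {Wo : List α → Prop} {z n K M : ℕ} {hM : 0 < M} {φ : List α → S}
    {w w' : List α} : st Wo z n K M hM φ w = st Wo z n K M hM φ w' ↔
      w.take K = w'.take K ∧ lst n w = lst n w' ∧ (Fl Wo z w ↔ Fl Wo z w') ∧ φ w = φ w' ∧
        w.length % M = w'.length % M := by
  unfold st
  simp only [Prod.mk.injEq, Fin.mk.injEq, eq_iff_iff]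
  constructor
  · rintro ⟨h1, h2, h3⟩
    exact ⟨congrArg Subtype.val h1, congrArg Subtype.val h2, h3⟩
  · rintro ⟨h1, h2, h3⟩
    exact ⟨Subtype.ext h1, Subtype.ext h2, h3⟩

theorem take_app (K : ℕ) (w : List α) (a : α) : (w ++ [a]).take K = (w.take K ++ [a]).take K := by
  rcases le_or_gt K w.length with h | h
  · rw [List.take_append_of_le_length h, List.take_append_of_le_length (by
      rw [List.length_take]; omega), List.take_take, min_self]
  · rw [List.take_of_length_le (l := w) h.le]

theorem le_of_take {K z : ℕ} (hz : z ≤ K) {w w' : List α} (h : w.take K = w'.take K)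
    (h1 : z ≤ w.length) : z ≤ w'.length := by
  have := congrArg List.length h
  rw [List.length_take, List.length_take] at this
  omega

theorem st_cong {S : Type*} [Monoid S] {Wo : List α → Prop} {z n K M : ℕ} {hM : 0 < M} {φ : List α → S}
    (hφ : ∀ u v, φ (u ++ v) = φ u * φ v)
    (loc : ∀ P Q : List α, n ≤ Q.length → (Wo (P ++ Q) ↔ Wo Q)) (hz : z ≤ K)
    (w w' : List α) (a : α) (h : st Wo z n K M hM φ w = st Wo z n K M hM φ w') :
    st Wo z n K M hM φ (w ++ [a]) = st Wo z n K M hM φ (w' ++ [a]) := by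
  rw [st_eq] at h ⊢
  obtain ⟨h1, h2, h3, h4, h5⟩ := h
  refine ⟨?_, ?_, ?_, ?_, ?_⟩
  · rw [take_app, take_app K w', h1]
  · rw [lst_append, lst_append n w', h2]
  · rw [Fl_append, Fl_append, h3]
    have hw : Wo w ↔ Wo w' := by rw [wo_lst loc w, wo_lst loc w', h2]
    have hl : z ≤ w.length ↔ z ≤ w'.length :=
      ⟨fun h => le_of_take hz h1 h, fun h => le_of_take hz h1.symm h⟩
    rw [hw, hl]
  · rw [hφ, hφ, h4]
  · rw [List.length_append, List.length_append, Nat.add_mod, h5, ← Nat.add_mod]

theorem mem_XX {Wo : List α → Prop} {z : ℕ} {w : List α} :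
    w ∈ XX Wo z ↔ z ≤ w.length ∧ Wo w ∧ ¬ Fl Wo z w := by
  constructor
  · rintro ⟨h1, h2, h3⟩
    exact ⟨h1, h2, fun ⟨t, a, b, c⟩ => h3 t a b c⟩
  · rintro ⟨h1, h2, h3⟩
    exact ⟨h1, h2, fun t a b c => h3 ⟨t, a, b, c⟩⟩

theorem exists_XX_prefix {Wo : List α → Prop} {z : ℕ} {w : List α} {t : ℕ} (h1 : z ≤ t)
    (h2 : t ≤ w.length) (h3 : Wo (w.take t)) : ∃ X ∈ XX Wo z, X <+: w := by
  classical
  have hex : ∃ t, z ≤ t ∧ t ≤ w.length ∧ Wo (w.take t) := ⟨t, h1, h2, h3⟩
  obtain ⟨a1, a2, a3⟩ := Nat.find_spec hex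
  have hl : (w.take (Nat.find hex)).length = Nat.find hex := by rw [List.length_take]; omega
  refine ⟨w.take (Nat.find hex), ⟨by rw [hl]; exact a1, a3, fun s s1 s2 s3 => ?_⟩, List.take_prefix _ _⟩
  rw [hl] at s2
  rw [List.take_take, min_eq_left s2.le] at s3
  exact Nat.find_min hex s2 ⟨s1, by omega, s3⟩

theorem noXX_iff {Wo : List α → Prop} {z : ℕ} {w : List α} :
    (∀ X ∈ XX Wo z, ¬ X <+: w) ↔ ¬ Fl Wo z w ∧ ¬ (z ≤ w.length ∧ Wo w) := by
  constructor
  · intro h
    refine ⟨?_, ?_⟩
    · rintro ⟨t, a, b, c⟩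
      obtain ⟨X, hX, hp⟩ := exists_XX_prefix a b.le c
      exact h X hX hp
    · rintro ⟨a, b⟩
      obtain ⟨X, hX, hp⟩ := exists_XX_prefix (Wo := Wo) (w := w) a le_rfl (by
        rw [List.take_length]; exact b)
      exact h X hX hp
  · rintro ⟨h1, h2⟩ X hX hp
    obtain ⟨Y, rfl⟩ := hp
    rcases List.eq_nil_or_concat Y with rfl | ⟨Y', a, rfl⟩
    · rw [List.append_nil] at h2
      exact h2 ⟨hX.1, hX.2.1⟩
    · exact h1 ⟨X.length, hX.1, by simp, by rw [List.take_left]; exact hX.2.1⟩

section reg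

variable {S : Type*} [Monoid S] [Finite S] {Wo : List α → Prop} {z n : ℕ} {φ : List α → S}

theorem reg_XT [Finite α] {V : Type*} (hφ : ∀ u v, φ (u ++ v) = φ u * φ v)
    (loc : ∀ P Q : List α, n ≤ Q.length → (Wo (P ++ Q) ↔ Wo Q)) (T : List α → V)
    (K M : ℕ) (hM : 0 < M)
    (key : ∀ X X' : List α, X.take K = X'.take K → X.length % M = X'.length % M → φ X = φ X' →
      T X = T X') (v' : V) : Language.IsRegular ({X | X ∈ XX Wo z ∧ T X = v'} : Language α) := by
  refine reg_of_cong (st Wo z n (max K z) M hM φ) (fun w w' a h => st_cong hφ loc (le_max_right _ _) w w' a h) _ ?_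
  rintro w w' h ⟨hw, hT⟩
  rw [st_eq] at h
  obtain ⟨h1, h2, h3, h4, h5⟩ := h
  have hk : w.take K = w'.take K := by
    have := congrArg (List.take K) h1
    rwa [List.take_take, List.take_take, min_eq_left (le_max_left _ _)] at this
  refine ⟨?_, ?_⟩
  · rw [mem_XX] at hw ⊢
    refine ⟨le_of_take (le_max_right _ _) h1 hw.1, ?_, fun h => hw.2.2 (h3.2 h)⟩
    rw [wo_lst loc, ← h2, ← wo_lst loc]
    exact hw.2.1
  · rw [← hT]
    exact (key w w' hk h5 h4).symm

theorem reg_NP [Finite α] (hφ : ∀ u v, φ (u ++ v) = φ u * φ v)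
    (loc : ∀ P Q : List α, n ≤ Q.length → (Wo (P ++ Q) ↔ Wo Q)) (s : S) :
    Language.IsRegular ({r | (∀ X ∈ XX Wo z, ¬ X <+: r) ∧ φ r = s} : Language α) := by
  refine reg_of_cong (st Wo z n z 1 one_pos φ) (fun w w' a h => st_cong hφ loc le_rfl w w' a h) _ ?_
  rintro w w' h ⟨hw, hT⟩
  rw [st_eq] at h
  obtain ⟨h1, h2, h3, h4, h5⟩ := h
  refine ⟨?_, h4 ▸ hT⟩
  rw [noXX_iff] at hw ⊢
  refine ⟨fun h => hw.1 (h3.2 h), fun h => hw.2 ⟨le_of_take le_rfl h1.symm h.1, ?_⟩⟩
  rw [wo_lst loc, h2, ← wo_lst loc]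
  exact h.2

end reg

theorem pieces_cons {R B z : ℕ} {A U : List α} (hA : A.length ≤ z) (h : Pieces R B U) :
    Pieces (R + 1) (max B z) (A ++ U) := by
  obtain ⟨l, h1, h2, rfl⟩ := h
  refine ⟨(A, [], 0) :: l, by simpa using h1, ?_, ?_⟩
  · intro t ht
    rcases List.mem_cons.1 ht with rfl | ht
    · exact ⟨hA.trans (le_max_right _ _), by simp⟩
    · exact ⟨(h2 t ht).1.trans (le_max_left _ _), (h2 t ht).2.trans (le_max_left _ _)⟩
  · rw [val_cons]
    simp [pw]

theorem pieces_of_noFl {Wo : List α → Prop} {z n R B : ℕ}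
    (loc : ∀ P Q : List α, n ≤ Q.length → (Wo (P ++ Q) ↔ Wo Q))
    (len : ∀ P : List α, Wo P → n ≤ P.length)
    (pcs : ∀ u : List α, (∀ t < u.length, ¬ Wo (u.take t)) → Pieces R B u)
    {w : List α} (h : ¬ Fl Wo z w) : Pieces (R + 1) (max B z) w := by
  rw [← List.take_append_drop z w]
  refine pieces_cons (by rw [List.length_take]; omega) (pcs _ fun t ht hw => h ?_)
  rw [List.length_drop] at ht
  have hn := len _ hw
  have e : w.take (z + t) = w.take z ++ (w.drop z).take t := by
    rw [List.take_add]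
  refine ⟨z + t, by omega, by omega, ?_⟩
  rw [e, loc _ _ hn]
  exact hw

/-- **hXT**: blocks with a given value of the zone map are of height one -/
theorem hXT [Finite α] {S V : Type*} [Monoid S] [Finite S] {Wo : List α → Prop} {z n R B : ℕ}
    {φ : List α → S} (hφ : ∀ u v, φ (u ++ v) = φ u * φ v)
    (loc : ∀ P Q : List α, n ≤ Q.length → (Wo (P ++ Q) ↔ Wo Q))
    (len : ∀ P : List α, Wo P → n ≤ P.length)
    (pcs : ∀ u : List α, (∀ t < u.length, ¬ Wo (u.take t)) → Pieces R B u)
    (T : List α → V) (K M : ℕ) (hM : 0 < M)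
    (key : ∀ X X' : List α, X.take K = X'.take K → X.length % M = X'.length % M → φ X = φ X' →
      T X = T X') (v' : V) : HL 1 ({X | X ∈ XX Wo z ∧ T X = v'} : Language α) :=
  reg_pieces (reg_XT hφ loc T K M hM key v') (R + 1) (max B z) fun _ hw =>
    pieces_of_noFl loc len pcs (mem_XX.1 hw.1).2.2

/-- **hNP**: words without block prefix and with a given value are of height one -/
theorem hNP [Finite α] {S : Type*} [Monoid S] [Finite S] {Wo : List α → Prop} {z n R B : ℕ}
    {φ : List α → S} (hφ : ∀ u v, φ (u ++ v) = φ u * φ v)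
    (loc : ∀ P Q : List α, n ≤ Q.length → (Wo (P ++ Q) ↔ Wo Q))
    (len : ∀ P : List α, Wo P → n ≤ P.length)
    (pcs : ∀ u : List α, (∀ t < u.length, ¬ Wo (u.take t)) → Pieces R B u) (s : S) :
    HL 1 ({r | (∀ X ∈ XX Wo z, ¬ X <+: r) ∧ φ r = s} : Language α) :=
  reg_pieces (reg_NP hφ loc s) (R + 1) (max B z) fun _ hw =>
    pieces_of_noFl loc len pcs (noXX_iff.1 hw.1).1

/-- the key condition of the composed zone map
`T v X = act (act v (φ (X.take p0)) + nu2 (X.take p0)) (φ (X.drop p0)) + nu1 (X.drop p0)`,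
`φ (X.take p0) * φ (X.drop p0) = φ X` is not enough: we ask the value of the drop part too. -/
theorem hXT' [Finite α] {S V : Type*} [Monoid S] [Finite S] {Wo : List α → Prop} {z n R B : ℕ}
    {φ : List α → S} (hφ : ∀ u v, φ (u ++ v) = φ u * φ v)
    (loc : ∀ P Q : List α, n ≤ Q.length → (Wo (P ++ Q) ↔ Wo Q))
    (len : ∀ P : List α, Wo P → n ≤ P.length)
    (pcs : ∀ u : List α, (∀ t < u.length, ¬ Wo (u.take t)) → Pieces R B u)
    (T : List α → V) (K M p0 : ℕ) (hM : 0 < M)
    (key : ∀ X X' : List α, X.take K = X'.take K → X.length % M = X'.length % M →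
      φ (X.drop p0) = φ (X'.drop p0) → T X = T X') (v' : V) :
    HL 1 ({X | X ∈ XX Wo z ∧ T X = v'} : Language α) := by
  refine reg_pieces ?_ (R + 1) (max B z) fun _ hw =>
    pieces_of_noFl loc len pcs (mem_XX.1 hw.1).2.2
  let K' := max K (max z p0)
  let σ : List α → (Le α K' × Le α n × Prop × S × Fin M) × S := fun w =>
    (st Wo z n K' M hM φ w, φ (w.drop p0))
  refine reg_of_cong σ ?_ _ ?_
  · intro w w' a h
    simp only [σ, Prod.mk.injEq] at h ⊢
    refine ⟨st_cong hφ loc ((le_max_left _ _).trans (le_max_right _ _)) w w' a h.1, ?_⟩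
    obtain ⟨h1, h2⟩ := h
    rw [st_eq] at h1
    have ht := h1.1
    rcases le_or_gt p0 w.length with hl | hl
    · have hl' : p0 ≤ w'.length := le_of_take ((le_max_right _ _).trans (le_max_right _ _)) ht hl
      rw [List.drop_append_of_le_length hl, List.drop_append_of_le_length hl', hφ, hφ, h2]
    · have hK : p0 ≤ K' := (le_max_right _ _).trans (le_max_right _ _)
      have e1 : w.take K' = w := List.take_of_length_le (by omega)
      have hl' : w'.length < K' := by
        have := congrArg List.length ht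
        rw [List.length_take, List.length_take] at this
        omega
      have e2 : w'.take K' = w' := List.take_of_length_le hl'.le
      rw [e1, e2] at ht
      rw [ht]
  · rintro w w' h ⟨hw, hT⟩
    simp only [σ, Prod.mk.injEq] at h
    obtain ⟨h0, h6⟩ := h
    rw [st_eq] at h0
    obtain ⟨h1, h2, h3, h4, h5⟩ := h0
    have hk : w.take K = w'.take K := by
      have := congrArg (List.take K) h1
      rwa [List.take_take, List.take_take, min_eq_left (le_max_left _ _)] at this
    refine ⟨?_, ?_⟩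
    · rw [mem_XX] at hw ⊢
      refine ⟨le_of_take ((le_max_left _ _).trans (le_max_right _ _)) h1 hw.1, ?_,
        fun h => hw.2.2 (h3.2 h)⟩
      rw [wo_lst loc, ← h2, ← wo_lst loc]
      exact hw.2.1
    · rw [← hT]
      exact (key w w' hk h5 h6).symm

end Crest.Agent.R320.F122.P4N_211
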