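import Crest.Agent.R320.F122.Star_621
import Mathlib.Data.ZMod.Defs
import Mathlib.Algebra.Group.End

/-!
# Row 320: two nested stars over prefix-code zones (helper621)

`tok T = T → ZMod 2` with the right action `(f.t) x = f (t x)` is the token space.
`read` : from the flows of all tokens to the zone product in `T`.
`two_level` : the row (height 3, for one monoid) from the combinatorial data of two wall schemes,
all languages of the data being of height at most 1.
-/

set_option autoImplicit false

namespace Crest.Agent.R320.F122.Two_621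

open Crest.Agent.R320.F122.Hk_851 Crest.Agent.R320.F122.Star_621

universe u v

variable {α : Type u}

/-- token space of a monoid -/
abbrev Tok (T : Type v) : Type v := T → ZMod 2

/-- right action of the monoid on its token space -/
def act {T : Type v} [Monoid T] (f : Tok T) (t : T) : Tok T := fun x => f (t * x)

theorem act_mul {T : Type v} [Monoid T] (f : Tok T) (s t : T) :
    act (act f s) t = act f (s * t) := by
  funext x; simp [act, mul_assoc]

theorem act_one {T : Type v} [Monoid T] (f : Tok T) : act f 1 = f := by
  funext x; simp [act]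

theorem act_add {T : Type v} [Monoid T] (f g : Tok T) (t : T) :
    act (f + g) t = act f t + act g t := rfl

theorem act_zero {T : Type v} [Monoid T] (t : T) : act (0 : Tok T) t = 0 := rfl

theorem act_faithful {T : Type v} [Monoid T] {s t : T} (h : ∀ f : Tok T, act f s = act f t) :
    s = t := by
  classical
  by_contra hne
  have h1 := congrFun (h (fun x => if x = s then 1 else 0)) 1
  simp only [act, mul_one, if_true] at h1
  rw [if_neg (Ne.symm hne)] at h1
  exact one_ne_zero h1

/-- zone map `v ↦ v.θ(z) + d(z)` -/
def aff {T : Type v} [Monoid T] (th : List α → T) (d : List α → Tok T) (z : List α)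
    (f : Tok T) : Tok T := act f (th z) + d z

/-- zone product -/
inductive TP {T : Type v} [Monoid T] (Z : Language α) (th : List α → T) : List α → T → Prop
  | nil : TP Z th [] 1
  | cons {z w : List α} {t : T} (hz : z ∈ Z) (h : TP Z th w t) : TP Z th (z ++ w) (th z * t)

theorem TP.flow {T : Type v} [Monoid T] {Z : Language α} {th : List α → T}
    (d : List α → Tok T) {w : List α} {t : T} (h : TP Z th w t) :
    ∃ e : Tok T, ∀ f, Flow Z (aff th d) f w (act f t + e) := by
  induction h with
  | nil => exact ⟨0, fun f => by rw [act_one, add_zero]; exact Flow.nil f⟩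
  | @cons z w t hz _ ih =>
    obtain ⟨e, he⟩ := ih
    refine ⟨act (d z) t + e, fun f => ?_⟩
    have h1 := Flow.cons (psi := aff th d) (ω := f) hz (he (aff th d z f))
    have e1 : act (aff th d z f) t + e = act f (th z * t) + (act (d z) t + e) := by
      rw [aff, act_add, act_mul, add_assoc]
    rw [e1] at h1
    exact h1

theorem flow_det {Ω : Type v} {Z : Language α} {psi : List α → Ω → Ω} (hC : Code Z)
    {ω a b : Ω} {w : List α} (h1 : Flow Z psi ω w a) (h2 : Flow Z psi ω w b) : a = b := by
  induction h1 with
  | nil ω =>
    generalize hw : ([] : List α) = w at h2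
    cases h2 with
    | nil => rfl
    | @cons z y _ _ hz _ =>
      have : z = [] := (List.append_eq_nil_iff.1 hw.symm).1
      exact absurd (this ▸ hz) hC.1
  | @cons z w ω ω' hz _ ih =>
    generalize hw : z ++ w = x at h2
    cases h2 with
    | nil =>
      have : z = [] := (List.append_eq_nil_iff.1 hw).1
      exact absurd (this ▸ hz) hC.1
    | @cons z' y _ _ hz' hy =>
      have e := hC.2 z z' w y hz hz' hw
      subst e
      have : w = y := List.append_cancel_left hw
      subst this
      exact ih hy

theorem zs_tp {T : Type v} [Monoid T] {Z : Language α} (th : List α → T) {w : List α}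
    (h : ZS Z w) : ∃ t, TP Z th w t := by
  induction h with
  | nil => exact ⟨1, TP.nil⟩
  | cons hz _ ih =>
    obtain ⟨t, ht⟩ := ih
    exact ⟨_, TP.cons hz ht⟩

/-- **Reading lemma.** -/
theorem read {T : Type v} [Monoid T] [Finite T] {Z : Language α} (hC : Code Z)
    (th : List α → T) (d : List α → Tok T) {h : ℕ}
    (hF : ∀ f g, HL h ({w | Flow Z (aff th d) f w g} : Language α)) (t : T) :
    HL h ({w | TP Z th w t} : Language α) := by
  refine (HL.iUnion fun e : Tok T => HL.iInter fun f : Tok T =>
    hF f (act f t + e)).congr fun w => ?_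
  constructor
  · intro hw
    obtain ⟨e, he⟩ := TP.flow d hw
    exact ⟨e, fun f => he f⟩
  · rintro ⟨e, he⟩
    obtain ⟨t', ht'⟩ := zs_tp th (Flow.zs (he 0))
    obtain ⟨e', he'⟩ := TP.flow d ht'
    have key : ∀ f, act f t + e = act f t' + e' := fun f => flow_det hC (he f) (he' f)
    have e1 : e = e' := by
      have := key 0
      rw [act_zero, act_zero, zero_add, zero_add] at this
      exact this
    have e2 : t = t' := act_faithful fun f => by
      have := key f
      rw [e1] at this
      exact add_right_cancel this
    show TP Z th w t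
    rw [e2]; exact ht'

section levels

variable {Ω : Type v}

open Classical in
/-- what a zone does to the token of the outer scheme: `none` = cut somewhere -/
noncomputable def stepA (psi : List α → Ω → Ω) (Lf Rt : Ω → Language α) (z : List α) :
    (Function.End (Option Ω))ᵐᵒᵖ :=
  MulOpposite.op fun o => o.bind fun v => if Cut Lf Rt v z then none else some (psi z v)

theorem stepA_none (psi : List α → Ω → Ω) (Lf Rt : Ω → Language α) (z : List α) :
    (stepA psi Lf Rt z).unop (none : Option Ω) = none := rfl

theorem stepA_cut {psi : List α → Ω → Ω} {Lf Rt : Ω → Language α} {z : List α} {v : Ω}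
    (h : Cut Lf Rt v z) : (stepA psi Lf Rt z).unop (some v : Option Ω) = none := by
  classical
  show (if Cut Lf Rt v z then none else some (psi z v)) = none
  rw [if_pos h]

theorem stepA_uncut {psi : List α → Ω → Ω} {Lf Rt : Ω → Language α} {z : List α} {v : Ω}
    (h : ¬ Cut Lf Rt v z) :
    (stepA psi Lf Rt z).unop (some v : Option Ω) = some (psi z v) := by
  classical
  show (if Cut Lf Rt v z then none else some (psi z v)) = some (psi z v)
  rw [if_neg h]

theorem uflow_iff {Z Zc : Language α} {psi : List α → Ω → Ω} {Lf Rt : Ω → Language α}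
    (hsub : ∀ z ∈ Zc, z ∈ Z) (hcomp : ∀ z ∈ Z, z ∉ Zc → ∀ v, Cut Lf Rt v z)
    {w : List α} {ω ω' : Ω} :
    UFlow Z psi Lf Rt ω w ω' ↔
      ∃ t, TP Zc (stepA psi Lf Rt) w t ∧ t.unop (some ω) = some ω' := by
  classical
  constructor
  · intro h
    induction h with
    | nil ω => exact ⟨1, TP.nil, rfl⟩
    | @cons z w ω ω' hz hc _ ih =>
      obtain ⟨t, ht, h1⟩ := ih
      have hzc : z ∈ Zc := by
        by_contra hn
        exact hc (hcomp z hz hn ω)
      refine ⟨stepA psi Lf Rt z * t, TP.cons hzc ht, ?_⟩
      have e : (stepA psi Lf Rt z * t).unop (some ω)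
          = t.unop ((stepA psi Lf Rt z).unop (some ω)) := rfl
      rw [e]
      have e2 : (stepA psi Lf Rt z).unop (some ω) = some (psi z ω) := stepA_uncut hc
      rw [e2]; exact h1
  · rintro ⟨t, ht, h1⟩
    induction ht generalizing ω with
    | nil =>
      have : (some ω : Option Ω) = some ω' := h1
      cases this
      exact UFlow.nil _
    | @cons z w t hz _ ih =>
      have e : (stepA psi Lf Rt z * t).unop (some ω)
          = t.unop ((stepA psi Lf Rt z).unop (some ω)) := rfl
      rw [e] at h1
      by_cases hc : Cut Lf Rt ω z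
      · have e2 : (stepA psi Lf Rt z).unop (some ω) = none := stepA_cut hc
        rw [e2] at h1
        exfalso
        clear e e2 ih
        have : ∀ (w : List α) (t : (Function.End (Option Ω))ᵐᵒᵖ),
            TP Zc (stepA psi Lf Rt) w t → t.unop (none : Option Ω) = none := by
          intro w t ht
          induction ht with
          | nil => rfl
          | @cons z w t _ _ ih =>
            have e : (stepA psi Lf Rt z * t).unop (none : Option Ω)
              = t.unop ((stepA psi Lf Rt z).unop none) := rfl
            rw [e]
            have e2 : (stepA psi Lf Rt z).unop (none : Option Ω) = none := stepA_none psi Lf Rt z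
            rw [e2]; exact ih
        rename_i hw
        rw [this w t hw] at h1
        cases h1
      · have e2 : (stepA psi Lf Rt z).unop (some ω) = some (psi z ω) := stepA_uncut hc
        rw [e2] at h1
        exact UFlow.cons (hsub z hz) hc (ih h1)

/-- inner scheme complete on all its zones: flows have height `h + 1` -/
theorem star_complete [Finite Ω] {h : ℕ} {Z : Language α} {psi : List α → Ω → Ω}
    {Lf Rt : Ω → Language α} (hC : Code Z) (hS : Sound Z psi Lf Rt)
    (hZ : HL h Z) (hL : ∀ ω, HL h (Lf ω)) (hR : ∀ ω, HL h (Rt ω))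
    (hcut : ∀ z ∈ Z, ∀ v, Cut Lf Rt v z) (ω ω' : Ω) :
    HL (h + 1) ({w | Flow Z psi ω w ω'} : Language α) := by
  refine star hC hS hZ.star hL hR (fun ω ω' => ?_) ω ω'
  by_cases e : ω = ω'
  · subst e
    refine (HL.one : HL h (1 : Language α)).congr fun w => ?_
    constructor
    · intro hw
      cases hw with
      | nil => exact Language.nil_mem_one
      | cons hz hc _ => exact absurd (hcut _ hz _) hc
    · intro hw
      have : w = [] := Language.mem_one _ |>.1 hw
      subst this
      exact UFlow.nil ω
  · refine (HL.zero : HL h (0 : Language α)).congr fun w => ?_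
    constructor
    · intro hw
      cases hw with
      | nil => exact absurd rfl e
      | cons hz hc _ => exact absurd (hcut _ hz _) hc
    · intro hw; exact absurd hw (Language.notMem_zero w)

end levels

/-- **Two nested stars.**  `Z` zones, `Zc` the zones on which the outer scheme is not complete,
`LA RA dA` outer scheme (tokens of `S`), `LB RB dB` inner scheme (tokens of the finite monoid of
maps of `Option (Tok S)`), everything of height at most `h`; then the zone products have height
at most `h + 2`. -/
theorem two_level {S : Type v} [Monoid S] [Finite S] {h : ℕ} {Z Zc : Language α}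
    (ph : List α → S) (hC : Code Z) (hsub : ∀ z ∈ Zc, z ∈ Z)
    (hZ : HL h Z) (hZc : HL h Zc)
    (dA : List α → Tok S) (LA RA : Tok S → Language α)
    (hSA : Sound Z (aff ph dA) LA RA)
    (hLA : ∀ v, HL h (LA v)) (hRA : ∀ v, HL h (RA v))
    (hcomp : ∀ z ∈ Z, z ∉ Zc → ∀ v, Cut LA RA v z)
    (dB : List α → Tok (Function.End (Option (Tok S)))ᵐᵒᵖ)
    (LB RB : Tok (Function.End (Option (Tok S)))ᵐᵒᵖ → Language α)
    (hSB : Sound Zc (aff (stepA (aff ph dA) LA RA) dB) LB RB)
    (hLB : ∀ v, HL h (LB v)) (hRB : ∀ v, HL h (RB v))
    (hcut : ∀ z ∈ Zc, ∀ v, Cut LB RB v z) (s : S) :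
    HL (h + 2) ({w | TP Z ph w s} : Language α) := by
  have : Finite (Function.End (Option (Tok S))) :=
    inferInstanceAs (Finite (Option (Tok S) → Option (Tok S)))
  have : Finite (Function.End (Option (Tok S)))ᵐᵒᵖ :=
    Finite.of_equiv _ MulOpposite.opEquiv
  have hCc : Code Zc := ⟨fun hn => hC.1 (hsub _ hn), fun z z' x x' h1 h2 =>
    hC.2 z z' x x' (hsub _ h1) (hsub _ h2)⟩
  have hFB := star_complete hCc hSB hZc hLB hRB hcut
  have hTB := read hCc (stepA (aff ph dA) LA RA) dB hFB
  have m1 := Nat.le_succ h
  have hFA : ∀ f g, HL (h + 1 + 1) ({w | Flow Z (aff ph dA) f w g} : Language α) := by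
    refine star hC hSA ((hZ.mono m1).star) (fun v => (hLA v).mono m1)
      (fun v => (hRA v).mono m1) fun f g => ?_
    refine (HL.iUnion fun t : {t : (Function.End (Option (Tok S)))ᵐᵒᵖ //
      t.unop (some f) = some g} => hTB t.1).congr fun w => ?_
    constructor
    · intro hw
      obtain ⟨t, ht, h1⟩ := (uflow_iff hsub hcomp).1 hw
      exact ⟨⟨t, h1⟩, ht⟩
    · rintro ⟨t, ht⟩
      exact (uflow_iff hsub hcomp).2 ⟨t.1, ht, t.2⟩
  exact read hC ph dA hFA s

end Crest.Agent.R320.F122.Two_621
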