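import Crest.Agent.R320.F122.WallAll_291
import Crest.Agent.R320.F122.CompR_11

/-! Row 320: the wall leaf of helper845 (#13293): left-looking walls on all words. -/

set_option autoImplicit false

namespace Crest.Agent.R320.F122.WallU_36

open Crest.Agent.R320.F122

theorem flatten_replicate_reverse {α : Type*} (p : List α) (k : ℕ) :
    ((List.replicate k p).flatten).reverse = (List.replicate k p.reverse).flatten := by
  rw [List.reverse_flatten, List.map_replicate, List.reverse_replicate]

theorem exists_lwalls_all (α : Type*) [Finite α] (W : ℕ) :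
    ∃ (n : ℕ) (Wo : List α → Prop),
      (∀ P Q, n ≤ Q.length → (Wo (P ++ Q) ↔ Wo Q)) ∧
      (∀ P, Wo P → n ≤ P.length) ∧
      (∀ P d, Wo P → 0 < d → d ≤ W → ¬ Wo (P.take (P.length - d))) ∧
      ∃ B : ℕ, ∀ u : List α, (∀ t < u.length, ¬ Wo (u.take t)) →
        ∃ (a p v : List α) (k : ℕ), u = a ++ (List.replicate k p).flatten ++ v ∧
          a.length ≤ B ∧ p.length ≤ B ∧ v.length ≤ B := by
  obtain ⟨n, D, P0, C, R, -, hR1, hR2, hR3, -, hR5⟩ := WallAll_291.exists_walls_all α W
  refine ⟨n, fun P => R P.reverse, ?_, ?_, ?_, C + 1, ?_⟩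
  · intro P Q hQ
    show R (P ++ Q).reverse ↔ R Q.reverse
    rw [hR1, hR1 Q.reverse, List.reverse_append, List.take_append_of_le_length (by simpa using hQ)]
  · intro P h
    simpa using hR2 _ h
  · intro P d h h1 h2 h3
    have : (P.take (P.length - d)).reverse = P.reverse.drop d := by
      rcases le_or_gt d P.length with hd | hd
      · rw [List.reverse_take]
        congr 1
        omega
      · have h4 : P.length - d = 0 := by omega
        rw [h4, List.take_zero, List.reverse_nil, List.drop_eq_nil_of_le (by simp; omega)]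
    rw [this] at h3
    exact hR3 _ d h h1 h2 h3
  · intro u hu
    rcases List.eq_nil_or_concat u with rfl | ⟨u', x, rfl⟩
    · exact ⟨[], [], [], 0, by simp, by simp, by simp, by simp⟩
    · rw [List.concat_eq_append] at hu ⊢
      have hQ : ∀ i, i + n ≤ u'.reverse.length → ¬ R (u'.reverse.drop i) := by
        intro i hi h
        rw [List.length_reverse] at hi
        have h1 := hu (u'.length - i) (by rw [List.length_append, List.length_singleton]; omega)
        apply h1
        rw [List.take_append_of_le_length (by omega)]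
        have : (u'.take (u'.length - i)).reverse = u'.reverse.drop i := by
          rw [List.reverse_take]
          congr 1
          omega
        rw [this]
        exact h
      obtain ⟨a, p, v, k, h1, h2, h3, h4⟩ := hR5 _ hQ
      refine ⟨v.reverse, p.reverse, a.reverse ++ [x], k, ?_, by rw [List.length_reverse]; omega,
        by rw [List.length_reverse]; omega, by
          rw [List.length_append, List.length_reverse, List.length_singleton]; omega⟩
      have h5 := congrArg List.reverse h1
      rw [List.reverse_reverse] at h5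
      rw [h5]
      simp only [List.reverse_append, flatten_replicate_reverse, List.append_assoc]

theorem wall_leaf (α : Type*) [Finite α] (W : ℕ) :
    ∃ (n : ℕ) (Wo : List α → Prop),
      (∀ P Q, n ≤ Q.length → (Wo (P ++ Q) ↔ Wo Q)) ∧
      (∀ P, Wo P → n ≤ P.length) ∧
      (∀ P d, Wo P → 0 < d → d ≤ W → ¬ Wo (P.take (P.length - d))) ∧
      ∃ R B : ℕ, ∀ u : List α, (∀ t < u.length, ¬ Wo (u.take t)) → CompR_11.Pieces R B u := by
  obtain ⟨n, Wo, h1, h2, h3, B, h4⟩ := exists_lwalls_all α W
  refine ⟨n, Wo, h1, h2, h3, 2, B, ?_⟩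
  intro u hu
  obtain ⟨a, p, v, k, rfl, ha, hp, hv⟩ := h4 u hu
  refine ⟨[(a, p, k), (v, [], 0)], by simp, ?_, ?_⟩
  · intro t ht
    simp only [List.mem_cons, List.not_mem_nil, or_false] at ht
    rcases ht with rfl | rfl
    · exact ⟨ha, hp⟩
    · exact ⟨hv, by simp⟩
  · simp [Pump_360.val, Pump_360.pw]

end Crest.Agent.R320.F122.WallU_36
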