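import Crest.Agent.R320.F122.Top5_120
import Crest.Agent.R320.F122.Joint_47
import Crest.Agent.R320.F122.FinG_122
import Crest.Agent.R320.F122.WallU_36
import Crest.Agent.R320.F122.P4N_211
import Crest.Agent.R320.F122.Two_621
import Crest.Agent.R320.F122.Univ_294

/-!
# Row 320: the join (helper122)
-/

set_option autoImplicit false

namespace Crest.Agent.R320.F122.Fin_122

open Crest.Agent.R320.F122.Hk_851 Crest.Agent.R320.F122.FinG_122
open Crest.Agent.R320.F122.ExactR_237 (pr pr_append)
open Crest.Agent.R320.F122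

theorem fin (α : Type) [Finite α] (S : Type) [Monoid S] [Finite S] (φ : α → S) (s : S) :
    HL 3 ({w | (w.map φ).prod = s} : Language α) := by
  classical
  haveI : Fintype S := Fintype.ofFinite S
  let V := Two_621.Tok S
  haveI : Finite V := inferInstanceAs (Finite (S → ZMod 2))
  haveI : Fintype V := Fintype.ofFinite V
  let act : V → S → V := Two_621.act
  have hadd : ∀ a b s, act (a + b) s = act a s + act b s := Two_621.act_add
  have hone : ∀ v, act v 1 = v := Two_621.act_one
  have hmul : ∀ v s t, act v (s * t) = act (act v s) t := fun v s t => (Two_621.act_mul v s t).symm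
  have hfaith : ∀ s t, (∀ v, act v s = act v t) → s = t := fun s t h => Two_621.act_faithful h
  obtain ⟨R1, hG⟩ := gad S V act
  obtain ⟨K, hE⟩ := ExactR_237.exact_gadget α S V φ act (2 * R1 + 2)
  obtain ⟨N1, Md, La, c, BadT, hMd, hN1, hinc, hres, hT, hper, hgad⟩ := hG K
  obtain ⟨lam, rho, nu1, g1, g2, g3, g4⟩ := hgad α (pr φ) (pr_append φ)
  obtain ⟨lam2, rho2, nu2', e1, e2⟩ := hE c hinc
  let p0 := c K + ∑ k ∈ Finset.range K, c k
  have hcp : ∀ k, k < K → c k ≤ p0 := by
    intro k hk
    have : c k ≤ ∑ k ∈ Finset.range K, c k :=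
      Finset.single_le_sum (f := c) (fun _ _ => Nat.zero_le _) (Finset.mem_range.2 hk)
    show c k ≤ c K + ∑ k ∈ Finset.range K, c k
    omega
  obtain ⟨n, Wo, w1, w2, w3, R, B, w4⟩ := WallU_36.wall_leaf α (2 * (N1 + p0) + 1)
  have hW : Joint_47.LW n (2 * (N1 + p0) + 1) Wo := by
    refine ⟨w2, w1, ?_⟩
    intro X s t hst htl hs ht
    by_contra hn
    have h1 := w3 _ (t - s) ht (by omega) (by omega)
    apply h1
    rw [List.take_take, List.length_take, min_eq_left htl]
    have e : min (t - (t - s)) t = s := by omega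
    rw [e]; exact hs
  let z := 3 * p0 + n + N1 + 1 + La
  let nu2 : List α → V := fun X => nu2' X 1
  let nu : List α → V := fun X => act (nu2 (X.take p0)) (pr φ (X.drop p0)) + nu1 (X.drop p0)
  let C : Set (List α) := Joint_47.Zn Wo z
  let Bad : Set (List α) := {X | X ∈ Joint_47.Zn Wo z ∧ Joint_47.Bad Wo z N1 p0 BadT X}
  have hTe : ∀ (v : V) (X : List α), Joint_47.T φ act p0 nu2 nu1 v X =
      act v (X.map φ).prod + nu X := by
    intro v X
    have h1 : (X.map φ).prod = pr φ (X.take p0) * pr φ (X.drop p0) := by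
      rw [← pr_append, List.take_append_drop]; rfl
    show act (act v (pr φ (X.take p0)) + nu2 (X.take p0)) (pr φ (X.drop p0)) + nu1 (X.drop p0) = _
    rw [hadd, ← hmul, ← h1]
    show _ = act v (X.map φ).prod + (act (nu2 (X.take p0)) (pr φ (X.drop p0)) + nu1 (X.drop p0))
    rw [add_assoc]
  -- finite state
  let K0 := z + N1 + p0 + La
  have hlong : ∀ X X' : List α, X.take K0 = X'.take K0 → X.length < K0 → X = X' := by
    intro X X' h hl
    have h1 := congrArg List.length h
    rw [List.length_take, List.length_take, min_eq_right hl.le] at h1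
    have h2 : X'.length ≤ K0 := by
      by_contra h3
      rw [min_eq_left (by omega)] at h1
      omega
    rw [List.take_of_length_le hl.le, List.take_of_length_le h2] at h
    exact h
  have hkey : ∀ x : V, ∀ X X' : List α, X.take K0 = X'.take K0 → X.length % Md = X'.length % Md →
      pr φ (X.drop K0) = pr φ (X'.drop K0) →
      ((act x (X.map φ).prod + nu X, Joint_47.Bad Wo z N1 p0 BadT X) : V × Prop) =
        (act x (X'.map φ).prod + nu X', Joint_47.Bad Wo z N1 p0 BadT X') := by
    intro x X X' ht hm hd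
    by_cases hl : X.length < K0
    · rw [hlong X X' ht hl]
    by_cases hl' : X'.length < K0
    · rw [hlong X' X ht.symm hl']
    have hX : K0 ≤ X.length := by omega
    have hX' : K0 ≤ X'.length := by omega
    have hmul' : ∀ u v, pr φ (u ++ v) = pr φ u * pr φ v := pr_append φ
    have d0 : (X.map φ).prod = (X'.map φ).prod := by
      have := drop_congr hmul' hX hX' ht hd (j := 0) (by omega)
      simpa [ExactR_237.pr] using this
    have dp : pr φ (X.drop p0) = pr φ (X'.drop p0) :=
      drop_congr hmul' hX hX' ht hd (j := p0) (by show p0 ≤ z + N1 + p0 + La; omega)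
    have tp : X.take p0 = X'.take p0 :=
      take_congr ht (by show p0 ≤ z + N1 + p0 + La; omega)
    have hn1 : nu1 (X.drop p0) = nu1 (X'.drop p0) := by
      refine g4 _ _ ?_ ?_ ?_ ?_ ?_
      · rw [List.length_drop]
        have : z + N1 + p0 + La ≤ X.length := hX
        omega
      · rw [List.length_drop]
        have : z + N1 + p0 + La ≤ X'.length := hX'
        omega
      · rw [List.take_drop, List.take_drop,
          take_congr ht (j := p0 + La) (by show p0 + La ≤ z + N1 + p0 + La; omega)]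
      · rw [List.drop_drop, List.drop_drop]
        exact drop_congr hmul' hX hX' ht hd (j := p0 + La)
          (by show p0 + La ≤ z + N1 + p0 + La; omega)
      · rw [List.length_drop, List.length_drop]
        exact sub_mod_congr
          (by have : z + N1 + p0 + La ≤ X.length := hX; omega)
          (by have : z + N1 + p0 + La ≤ X'.length := hX'; omega) hm
    have hnu : nu X = nu X' := by
      show act (nu2 (X.take p0)) (pr φ (X.drop p0)) + nu1 (X.drop p0) =
        act (nu2 (X'.take p0)) (pr φ (X'.drop p0)) + nu1 (X'.drop p0)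
      rw [tp, dp, hn1]
    have hb : ∀ Y Y' : List α, K0 ≤ Y.length → K0 ≤ Y'.length → Y.take K0 = Y'.take K0 →
        Y.length % Md = Y'.length % Md → Joint_47.Bad Wo z N1 p0 BadT Y →
          Joint_47.Bad Wo z N1 p0 BadT Y' := by
      intro Y Y' hY hY' ht hm h
      have hY2 : z + N1 + p0 + La ≤ Y.length := hY
      have hY2' : z + N1 + p0 + La ≤ Y'.length := hY'
      rcases h with ⟨t, t1, t2, t3, t4⟩ | h
      · left
        refine ⟨t, t1, t2, by omega, ?_⟩
        rw [← take_congr ht (j := t) (by show t ≤ z + N1 + p0 + La; omega)]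
        exact t4
      · right
        exact hper _ _ (by omega) (by omega) (sub_mod_congr (by omega) (by omega) hm) h
    rw [d0, hnu]
    exact congrArg (Prod.mk _) (propext ⟨hb X X' hX hX' ht hm, hb X' X hX' hX ht.symm hm.symm⟩)
  have hBT : ∀ x y, HL 1 ({X | X ∈ Bad ∧ act x (X.map φ).prod + nu X = y} : Language α) := by
    intro x y
    refine (P4N_211.hXT' (φ := pr φ) (Wo := Wo) (z := z) (pr_append φ) w1 w2 w4
      (fun X => ((act x (X.map φ).prod + nu X, Joint_47.Bad Wo z N1 p0 BadT X) : V × Prop))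
      K0 Md K0 hMd (hkey x) (y, True)).congr fun w => ?_
    constructor
    · rintro ⟨⟨h1, h2⟩, h3⟩
      refine ⟨h1, ?_⟩
      show (act x (w.map φ).prod + nu w, Joint_47.Bad Wo z N1 p0 BadT w) = ((y, True) : V × Prop)
      rw [h3, eq_true h2]
    · rintro ⟨h1, h2⟩
      have h3 := Prod.mk.inj h2
      exact ⟨⟨h1, of_eq_true h3.2⟩, h3.1⟩
  have hCT : ∀ x y, HL 1 ({X | X ∈ C ∧ act x (X.map φ).prod + nu X = y} : Language α) := by
    intro x y
    refine (P4N_211.hXT' (φ := pr φ) (Wo := Wo) (z := z) (pr_append φ) w1 w2 w4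
      (fun X => act x (X.map φ).prod + nu X)
      K0 Md K0 hMd (fun X X' a b c => (Prod.mk.inj (hkey x X X' a b c)).1) y).congr fun w => Iff.rfl
  have htail : ∀ s, HL 1 ({w | (∀ X ∈ C, ¬ X <+: w) ∧ (w.map φ).prod = s} : Language α) := by
    intro s
    exact (P4N_211.hNP (φ := pr φ) (Wo := Wo) (z := z) (pr_append φ) w1 w2 w4 s).congr
      fun w => Iff.rfl
  let L1 : V → Set (List α) := fun v => {P | Joint_47.L1 φ act p0 nu2 lam v P}
  let L2 : V → Set (List α) := fun v => {P | Joint_47.L2 K c lam2 v P}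
  have hf1 : ∀ v, (L1 v).Finite := by
    intro v
    refine (List.finite_length_le α (p0 + N1)).subset ?_
    rintro P ⟨h1, h2⟩
    have := g1 _ _ h2
    rw [List.length_drop] at this
    show P.length ≤ p0 + N1
    omega
  have hf2 : ∀ v, (L2 v).Finite := by
    intro v
    refine (List.finite_length_le α p0).subset ?_
    rintro P ⟨k, hk, h1, h2⟩
    show P.length ≤ p0
    rw [h1]; exact hcp k hk
  have hpc : Blk467.PCode C := by
    refine ⟨fun h => ?_, fun X hX Y hY h => ?_⟩
    · have h1 : z ≤ ([] : List α).length := h.1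
      simp only [List.length_nil] at h1
      have h2 : 3 * p0 + n + N1 + 1 + La ≤ 0 := h1
      omega
    · exact Joint_47.Zn_prefix hX hY h List.prefix_rfl
  refine Top5_120.top5 act hadd hone hmul hfaith φ nu C Bad hpc (fun X hX => hX.1) L1 L2 hf1 hf2
    hCT hBT htail ?_ ?_ s
  · intro X hX hXb v
    obtain ⟨p, q, h1, h2, h3, h4⟩ := Joint_47.complete1 φ act p0 nu2 nu1 (N0 := La) hW g2 g1 g3
      (by show p0 + La ≤ 3 * p0 + n + N1 + 1 + La; omega)
      (by show p0 + n + N1 + 1 ≤ 3 * p0 + n + N1 + 1 + La; omega) hX (fun h => hXb ⟨hX, h⟩) v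
    refine ⟨p, q, h1.symm, h2, fun x P' hP' => ?_⟩
    obtain ⟨h5, h6⟩ := h4 x P' hP'
    refine ⟨h5, ?_⟩
    rw [← hTe, ← hTe]; exact h6
  · intro X hX Y hY v
    obtain ⟨p, q, h1, h2, h3, h4⟩ := Joint_47.complete2 φ act p0 nu1 hW e1 e2 hinc hcp hres hT
      (by omega) (by show 3 * p0 + n + N1 + 1 ≤ 3 * p0 + n + N1 + 1 + La; omega) hX.1 hY.1 hX.2 v
    refine ⟨p, q, h1.symm, h2, fun x P' hP' => ?_⟩
    rcases h4 x P' hP' with ⟨a, ha, hab, he, ht⟩ | ⟨a, ha, hab, he⟩
    · left
      refine ⟨a, ⟨ha, hab⟩, Y, hY.1, he.symm, ?_⟩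
      rw [← hTe, ← hTe, ← hTe, ← hTe]
      exact congrArg (fun t => Joint_47.T φ act p0 nu2 nu1 t Y) ht
    · right
      exact ⟨a, ha, fun h => hab h.2, he⟩

/-- **S0495** -/
theorem main (α : Type*) [Finite α] (L : Language α) (hL : L.IsRegular) :
    ∃ e : Crest.RegLang.GRegExp α, e.height ≤ 3 ∧ e.lang = L :=
  Univ_294.s0495_of_type0 (fun n S _ _ φ s => fin (Fin n) S φ s) α L hL

end Crest.Agent.R320.F122.Fin_122
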