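import Crest.Agent.R320.F122.Hk1_851

/-!
# Row 320, PUMP LEMMA: long runs cost one star (helper360)

Let every word of `L` be a product of at most `R` pieces `f ++ x^k` with `f`, `x` of length
`≤ B` (`k` arbitrary), and let `u ++ x^k ++ v ∈ L ↔ u ++ x^(k+M) ++ v ∈ L` for `|x| ≤ B`,
`k ≥ E`.  Then `L` has generalized star height at most one.
Use: junction words of a wall scheme with a bounded number of zones, where between two walls
there is at most one long run.
-/

set_option autoImplicit false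

namespace Crest.Agent.R320.F122.Pump_360

open Crest.RegLang Crest.Agent.R320.F122.Hk_851

universe u

variable {α : Type u}

/-- powers of a word -/
def pw (x : List α) (k : ℕ) : List α := (List.replicate k x).flatten

theorem pw_zero (x : List α) : pw x 0 = [] := rfl

theorem pw_succ (x : List α) (k : ℕ) : pw x (k + 1) = x ++ pw x k := by
  unfold pw
  rw [List.replicate_succ, List.flatten_cons]

theorem pw_add (x : List α) (k l : ℕ) : pw x (k + l) = pw x k ++ pw x l := by
  induction k with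
  | zero => rw [Nat.zero_add, pw_zero, List.nil_append]
  | succ k ih => rw [Nat.succ_add, pw_succ, ih, pw_succ, List.append_assoc]

theorem pw_mul (x : List α) (k l : ℕ) : pw x (l * k) = pw (pw x k) l := by
  induction l with
  | zero => rw [Nat.zero_mul, pw_zero, pw_zero]
  | succ l ih => rw [Nat.succ_mul, Nat.add_comm, pw_add, ih, pw_succ]

/-- product of the pieces `f ++ x^k` -/
def val (l : List (List α × List α × ℕ)) : List α :=
  (l.map fun t => t.1 ++ pw t.2.1 t.2.2).flatten

theorem val_nil : val ([] : List (List α × List α × ℕ)) = [] := rfl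

theorem val_cons (t : List α × List α × ℕ) (l : List (List α × List α × ℕ)) :
    val (t :: l) = t.1 ++ pw t.2.1 t.2.2 ++ val l := by
  unfold val
  rw [List.map_cons, List.flatten_cons]

/-- exponents may grow by multiples of `M` above the threshold `E` -/
def Up (E M : ℕ) (t t' : List α × List α × ℕ) : Prop :=
  t'.1 = t.1 ∧ t'.2.1 = t.2.1 ∧ ∃ j, t'.2.2 = t.2.2 + j * M ∧ (j = 0 ∨ E ≤ t.2.2)

def Lam (E M : ℕ) (l : List (List α × List α × ℕ)) : Language α :=
  {w | ∃ l', List.Forall₂ (Up E M) l l' ∧ w = val l'}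

theorem HL_powers (x : List α) (c M : ℕ) :
    HL 1 ({w | ∃ j, w = pw x (c + j * M)} : Language α) := by
  have h1 : HL 1 (({pw x c} : Language α) * KStar.kstar ({pw x M} : Language α)) :=
    (HL.word _).mul (HL.star (k := 0) (HL.word _))
  refine h1.congr fun w => ?_
  constructor
  · rintro ⟨j, rfl⟩
    refine Language.mem_mul.2 ⟨pw x c, rfl, pw x (j * M), ?_, (pw_add x c (j * M)).symm⟩
    rw [Language.mem_kstar]
    refine ⟨List.replicate j (pw x M), ?_, ?_⟩
    · rw [pw_mul]; rfl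
    · intro y hy
      rw [List.eq_of_mem_replicate hy]; rfl
  · intro hw
    obtain ⟨y, hy, z, hz, rfl⟩ := Language.mem_mul.1 hw
    rw [Language.mem_kstar] at hz
    obtain ⟨L, rfl, hL⟩ := hz
    refine ⟨L.length, ?_⟩
    rw [Set.mem_singleton_iff.1 hy, pw_add]
    congr 1
    rw [pw_mul]
    clear hy hw
    induction L with
    | nil => rfl
    | cons a L ih =>
      rw [List.flatten_cons, List.length_cons, pw_succ,
        ih (fun v hv => hL v (List.mem_cons_of_mem _ hv)),
        Set.mem_singleton_iff.1 (hL a List.mem_cons_self)]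

theorem HL_up (E M : ℕ) (t : List α × List α × ℕ) :
    HL 1 ({w | ∃ t', Up E M t t' ∧ w = t'.1 ++ pw t'.2.1 t'.2.2} : Language α) := by
  by_cases hE : E ≤ t.2.2
  · have h := (HL.word (k := 1) t.1).mul (HL_powers t.2.1 t.2.2 M)
    refine h.congr fun w => ?_
    constructor
    · rintro ⟨t', ⟨h1, h2, j, h3, -⟩, rfl⟩
      refine Language.mem_mul.2 ⟨t.1, rfl, pw t.2.1 (t.2.2 + j * M), ⟨j, rfl⟩, ?_⟩
      rw [h1, h2, h3]
    · intro hw
      obtain ⟨y, hy, z, ⟨j, rfl⟩, rfl⟩ := Language.mem_mul.1 hw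
      refine ⟨(t.1, t.2.1, t.2.2 + j * M), ⟨rfl, rfl, j, rfl, Or.inr hE⟩, ?_⟩
      rw [Set.mem_singleton_iff.1 hy]
  · have h := HL.word (k := 1) (t.1 ++ pw t.2.1 t.2.2)
    refine h.congr fun w => ?_
    constructor
    · rintro ⟨t', ⟨h1, h2, j, h3, h4⟩, rfl⟩
      rcases h4 with h4 | h4
      · rw [h4, Nat.zero_mul, Nat.add_zero] at h3
        rw [h1, h2, h3]; rfl
      · exact absurd h4 hE
    · intro hw
      rw [Set.mem_singleton_iff.1 hw]
      exact ⟨t, ⟨rfl, rfl, 0, by simp, Or.inl rfl⟩, rfl⟩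

theorem HL_Lam (E M : ℕ) (l : List (List α × List α × ℕ)) : HL 1 (Lam E M l) := by
  induction l with
  | nil =>
    refine (HL.word (k := 1) ([] : List α)).congr fun w => ?_
    constructor
    · rintro ⟨l', hl, rfl⟩
      cases hl
      rfl
    · intro hw
      rw [Set.mem_singleton_iff.1 hw]
      exact ⟨[], List.Forall₂.nil, rfl⟩
  | cons t l ih =>
    refine ((HL_up E M t).mul ih).congr fun w => ?_
    constructor
    · rintro ⟨l', hl, rfl⟩
      cases hl with
      | cons h1 h2 =>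
        rename_i t' l''
        rw [val_cons]
        exact Language.mem_mul.2 ⟨_, ⟨t', h1, rfl⟩, _, ⟨l'', h2, rfl⟩, rfl⟩
    · intro hw
      obtain ⟨y, ⟨t', h1, rfl⟩, z, ⟨l'', h2, rfl⟩, rfl⟩ := Language.mem_mul.1 hw
      exact ⟨t' :: l'', List.Forall₂.cons h1 h2, (val_cons _ _).symm⟩

section pump

variable {L : Language α} {B E M : ℕ}

theorem pump_iter (hp : ∀ (u x v : List α) (k : ℕ), x.length ≤ B → E ≤ k →
      (u ++ pw x k ++ v ∈ L ↔ u ++ pw x (k + M) ++ v ∈ L))
    (u x v : List α) (c j : ℕ) (hx : x.length ≤ B) (hc : E ≤ c) :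
    u ++ pw x c ++ v ∈ L ↔ u ++ pw x (c + j * M) ++ v ∈ L := by
  induction j with
  | zero => rw [Nat.zero_mul, Nat.add_zero]
  | succ j ih =>
    rw [ih, hp u x v (c + j * M) hx (by omega), Nat.succ_mul, Nat.add_assoc]

theorem pump_list (hp : ∀ (u x v : List α) (k : ℕ), x.length ≤ B → E ≤ k →
      (u ++ pw x k ++ v ∈ L ↔ u ++ pw x (k + M) ++ v ∈ L))
    {l l' : List (List α × List α × ℕ)} (h : List.Forall₂ (Up E M) l l')
    (hB : ∀ t ∈ l, t.2.1.length ≤ B) (u : List α) :
    u ++ val l ∈ L ↔ u ++ val l' ∈ L := by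
  induction h generalizing u with
  | nil => rfl
  | cons h1 h2 ih =>
    rename_i t t' l l'
    obtain ⟨e1, e2, j, e3, e4⟩ := h1
    have hb : t.2.1.length ≤ B := hB t List.mem_cons_self
    have step : u ++ (t.1 ++ pw t.2.1 t.2.2 ++ val l) ∈ L ↔
        u ++ (t'.1 ++ pw t'.2.1 t'.2.2 ++ val l) ∈ L := by
      rw [e1, e2, e3]
      rcases e4 with e4 | e4
      · rw [e4, Nat.zero_mul, Nat.add_zero]
      · have := pump_iter hp (u ++ t.1) t.2.1 (val l) t.2.2 j hb e4
        simpa only [List.append_assoc] using this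
    have hr := ih (fun s hs => hB s (List.mem_cons_of_mem _ hs))
      (u ++ (t'.1 ++ pw t'.2.1 t'.2.2))
    rw [val_cons, val_cons, step]
    simpa only [List.append_assoc] using hr

end pump

theorem finite_lists {β : Type*} {s : Set β} (hs : s.Finite) (R : ℕ) :
    {l : List β | l.length ≤ R ∧ ∀ t ∈ l, t ∈ s}.Finite := by
  have : Finite s := hs.to_subtype
  refine ((List.finite_length_le s R).image (List.map Subtype.val)).subset ?_
  rintro l ⟨h1, h2⟩
  refine ⟨l.attach.map fun t => ⟨t.1, h2 t.1 t.2⟩, ?_, ?_⟩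
  · show List.length _ ≤ R
    rw [List.length_map, List.length_attach]; exact h1
  · rw [List.map_map]
    have : (Subtype.val ∘ fun t : {x // x ∈ l} => (⟨t.1, h2 t.1 t.2⟩ : s)) = Subtype.val := rfl
    rw [this, List.attach_map_subtype_val]

theorem red_exists (E M : ℕ) (hM : 0 < M) (k : ℕ) :
    ∃ c j, c < E + M ∧ k = c + j * M ∧ (j = 0 ∨ E ≤ c) := by
  by_cases h : k < E + M
  · exact ⟨k, 0, h, by simp, Or.inl rfl⟩
  · refine ⟨E + (k - E) % M, (k - E) / M, ?_, ?_, Or.inr (Nat.le_add_right _ _)⟩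
    · have := Nat.mod_lt (k - E) hM
      omega
    · have := Nat.mod_add_div (k - E) M
      rw [Nat.mul_comm] at this
      omega

theorem red_list (E M B : ℕ) (hM : 0 < M) (l : List (List α × List α × ℕ))
    (hl : ∀ t ∈ l, t.1.length ≤ B ∧ t.2.1.length ≤ B) :
    ∃ c : List (List α × List α × ℕ), List.Forall₂ (Up E M) c l ∧ c.length = l.length ∧
      ∀ t ∈ c, t.1.length ≤ B ∧ t.2.1.length ≤ B ∧ t.2.2 < E + M := by
  induction l with
  | nil => exact ⟨[], List.Forall₂.nil, rfl, by simp⟩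
  | cons t l ih =>
    obtain ⟨c, h1, h2, h3⟩ := ih fun s hs => hl s (List.mem_cons_of_mem _ hs)
    obtain ⟨d, j, hd, hk, hj⟩ := red_exists E M hM t.2.2
    have ht := hl t List.mem_cons_self
    refine ⟨(t.1, t.2.1, d) :: c, List.Forall₂.cons ⟨rfl, rfl, j, hk, hj⟩ h1, by simp [h2], ?_⟩
    intro s hs
    rcases List.mem_cons.1 hs with h | h
    · rw [h]; exact ⟨ht.1, ht.2, hd⟩
    · exact h3 s h

/-- **PUMP LEMMA.** -/
theorem pump [Finite α] {L : Language α} (R B E M : ℕ) (hM : 0 < M)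
    (hpieces : ∀ w ∈ L, ∃ l : List (List α × List α × ℕ), l.length ≤ R ∧
      (∀ t ∈ l, t.1.length ≤ B ∧ t.2.1.length ≤ B) ∧ w = val l)
    (hp : ∀ (u x v : List α) (k : ℕ), x.length ≤ B → E ≤ k →
      (u ++ pw x k ++ v ∈ L ↔ u ++ pw x (k + M) ++ v ∈ L)) :
    HL 1 L := by
  let s : Set (List α × List α × ℕ) :=
    {w : List α | w.length ≤ B} ×ˢ ({w : List α | w.length ≤ B} ×ˢ {k : ℕ | k < E + M})
  have hs : s.Finite := (List.finite_length_le α B).prod
    ((List.finite_length_le α B).prod (Set.finite_lt_nat _))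
  let T : Set (List (List α × List α × ℕ)) :=
    {l | (l.length ≤ R ∧ ∀ t ∈ l, t ∈ s) ∧ val l ∈ L}
  have hT : T.Finite := (finite_lists hs R).subset fun l hl => hl.1
  refine (HL.biUnion hT (L := Lam E M) fun l _ => HL_Lam E M l).congr fun w => ?_
  constructor
  · intro hw
    obtain ⟨l, h1, h2, rfl⟩ := hpieces w hw
    obtain ⟨c, hc, hlen, hb⟩ := red_list E M B hM l h2
    refine ⟨c, ⟨⟨by rw [hlen]; exact h1, ?_⟩, ?_⟩, l, hc, rfl⟩
    · intro t ht
      exact ⟨(hb t ht).1, (hb t ht).2.1, (hb t ht).2.2⟩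
    · have := (pump_list hp hc (fun t ht => (hb t ht).2.1) []).2 (by simpa using hw)
      simpa using this
  · rintro ⟨c, ⟨⟨-, hc2⟩, hc3⟩, l, hcl, rfl⟩
    have := (pump_list hp hcl (fun t ht => (hc2 t ht).2.1) []).1 (by simpa using hc3)
    simpa using this

end Crest.Agent.R320.F122.Pump_360
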