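import Crest.Agent.R320.F122.Core_467

/-!
# Row 320: top theorem of the block calculus with SEMANTIC right legality (helper120)

`C` prefix code of blocks (left-looking walls), `Bad ⊆ C`, one token system `V` with block map `T`.
Scheme 1 (`L1 v` : finite set of left words showing the token `v`) is complete off `Bad`.
Scheme 2 (`L2 v` finite) is complete on `Bad` with one more full block of look-ahead.
Right legality is DEFINED (`R1`, `R2`), so soundness is free; only the two completeness statements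
`hcc1`, `hcc2` are combinatorial.
-/

set_option autoImplicit false

namespace Crest.Agent.R320.F122.Top5_120

open Crest.RegLang Crest.Agent.R320.F122.Hk_851 Crest.Agent.R320.F122.Blk467

universe u

variable {α : Type u} {k : ℕ} {V : Type*}

/-- right words of scheme 1, semantic -/
def R1 (C : Set (List α)) (T : V → List α → V) (L1 : V → Set (List α)) (y : V) : Language α :=
  {Q | ∀ x, ∀ P ∈ L1 x, P ++ Q ∈ C ∧ T x (P ++ Q) = y}

/-- two blocks, the first one bad -/
def D2 (C Bad : Set (List α)) (T : V → List α → V) (x y : V) : Language α :=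
  {w | ∃ X ∈ Bad, ∃ Y ∈ C, X ++ Y = w ∧ T (T x X) Y = y}

/-- the word starts with a block which is not bad -/
def NB (C Bad : Set (List α)) : Language α := {w | ∃ X ∈ C, X ∉ Bad ∧ X <+: w}

/-- right words of scheme 2, semantic, with one more block of look-ahead -/
def R2 (C Bad : Set (List α)) (T : V → List α → V) (L2 : V → Set (List α)) (y : V) :
    Language α :=
  {Q | ∀ x, ∀ P ∈ L2 x, P ++ Q ∈ D2 C Bad T x y ∨ P ++ Q ∈ NB C Bad}

theorem HL_R1 [Finite V] {C : Set (List α)} {T : V → List α → V} {L1 : V → Set (List α)}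
    (hfin : ∀ v, (L1 v).Finite)
    (hCT : ∀ x y, HL k ({X | X ∈ C ∧ T x X = y} : Language α)) (y : V) :
    HL k (R1 C T L1 y) := by
  have h := HL.iInter (k := k) (ι := V)
    (L := fun x => ({Q | ∀ P ∈ L1 x, P ++ Q ∈ ({X | X ∈ C ∧ T x X = y} : Language α)} :
      Language α))
    (fun x => HL.biInter (hfin x)
      (L := fun P => ({Q | P ++ Q ∈ ({X | X ∈ C ∧ T x X = y} : Language α)} : Language α))
      (fun P _ => HL.lquot P (hCT x y)))
  exact h.congr fun w => Iff.rfl

theorem HL_D2 [Finite V] {C Bad : Set (List α)} {T : V → List α → V}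
    (hCT : ∀ x y, HL k ({X | X ∈ C ∧ T x X = y} : Language α))
    (hBT : ∀ x y, HL k ({X | X ∈ Bad ∧ T x X = y} : Language α)) (x y : V) :
    HL k (D2 C Bad T x y) := by
  let AA : V → V → Language α := fun a b => {X | X ∈ Bad ∧ T a X = b}
  let BB : V → V → Language α := fun a b => {X | X ∈ C ∧ T a X = b}
  have h := HL.iUnion (k := k) (ι := V)
    (L := fun z => AA x z * BB z y)
    (fun z => HL.mul (L := AA x z) (M := BB z y) (hBT x z) (hCT z y))
  refine h.congr fun w => ?_
  constructor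
  · rintro ⟨X, hX, Y, hY, rfl, hT⟩
    exact ⟨T x X, Language.mem_mul.2 ⟨X, ⟨hX, rfl⟩, Y, ⟨hY, hT⟩, rfl⟩⟩
  · intro hw
    obtain ⟨z, hz⟩ := hw
    obtain ⟨X, ⟨hX, hXz⟩, Y, ⟨hY, hT⟩, rfl⟩ := Language.mem_mul.1 hz
    refine ⟨X, hX, Y, hY, rfl, ?_⟩
    rw [hXz]; exact hT

theorem HL_C [Finite V] [Nonempty V] {C : Set (List α)} {T : V → List α → V}
    (hCT : ∀ x y, HL k ({X | X ∈ C ∧ T x X = y} : Language α)) : HL k (C : Language α) := by
  obtain ⟨v⟩ := ‹Nonempty V›
  refine (HL.iUnion (k := k) (ι := V) (L := fun y => ({X | X ∈ C ∧ T v X = y} : Language α))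
    (fun y => hCT v y)).congr fun w => ?_
  constructor
  · intro hw; exact ⟨T v w, hw, rfl⟩
  · rintro ⟨y, hy, -⟩; exact hy

theorem HL_NB {C Bad : Set (List α)} (hC : HL k (C : Language α)) (hB : HL k (Bad : Language α)) :
    HL k (NB C Bad) := by
  have h1 : HL k ({X | X ∈ C ∧ ¬ X ∈ Bad} : Language α) := hC.setOf_and hB.setOf_not
  refine (HL.prefix h1).congr fun w => ?_
  constructor
  · rintro ⟨X, h1, h2, h3⟩; exact ⟨X, ⟨h1, h2⟩, h3⟩
  · rintro ⟨X, ⟨h1, h2⟩, h3⟩; exact ⟨X, h1, h2, h3⟩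

theorem HL_R2 [Finite V] {C Bad : Set (List α)} {T : V → List α → V} {L2 : V → Set (List α)}
    (hfin : ∀ v, (L2 v).Finite)
    (hD : ∀ x y, HL k (D2 C Bad T x y)) (hN : HL k (NB C Bad)) (y : V) :
    HL k (R2 C Bad T L2 y) := by
  have h := HL.iInter (k := k) (ι := V)
    (L := fun x => ({Q | ∀ P ∈ L2 x, P ++ Q ∈ ({w | w ∈ D2 C Bad T x y ∨ w ∈ NB C Bad} :
      Language α)} : Language α))
    (fun x => HL.biInter (hfin x)
      (L := fun P => ({Q | P ++ Q ∈ ({w | w ∈ D2 C Bad T x y ∨ w ∈ NB C Bad} : Language α)} :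
        Language α))
      (fun P _ => HL.lquot P ((hD x y).setOf_or hN)))
  exact h.congr fun w => Iff.rfl

/-- scheme 2 with look-ahead: one star for the products of bad blocks -/
theorem bad_step [Finite V] {C Bad : Set (List α)} (hC : PCode C) (hBC : Bad ⊆ C)
    (T : V → List α → V) (L2 : V → Set (List α)) (hfin : ∀ v, (L2 v).Finite)
    (hCT : ∀ x y, HL k ({X | X ∈ C ∧ T x X = y} : Language α))
    (hBT : ∀ x y, HL k ({X | X ∈ Bad ∧ T x X = y} : Language α))
    (hcc2 : ∀ X ∈ Bad, ∀ Y ∈ Bad, ∀ v, ∃ P Q, P ++ Q = X ++ Y ∧ P ∈ L2 v ∧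
      Q ∈ R2 C Bad T L2 (T (T v X) Y)) (v v' : V) : HL (k + 1) (Lg Bad T v v') := by
  classical
  have : Nonempty V := ⟨v⟩
  have hD := HL_D2 hCT hBT
  have hC1 := HL_C hCT
  have hB1 := HL_C hBT
  have hN := HL_NB hC1 hB1
  have hR2 := HL_R2 hfin hD hN
  let LA : V → Language α := fun a => L2 a
  have hL2 : ∀ v, HL k (LA v) := fun v => HL.finite (hfin v)
  let K : Language α := {x | ∃ a : V, x ∈ (R2 C Bad T L2 a * LA a : Language α)}
  have hK : HL (k + 1) (KStar.kstar K) :=
    HL.star (HL.iUnion (k := k) (ι := V) (L := fun a => R2 C Bad T L2 a * LA a)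
      (fun a => (hR2 a).mul (hL2 a)))
  -- the end: no or one block
  let E : V → Language α := fun a => {x | (x = [] ∧ a = v') ∨ (x ∈ Bad ∧ T a x = v')}
  have hE : ∀ a, HL k (E a) := by
    intro a
    refine HL.setOf_or (HL.setOf_and ?_ (HL.const _)) (hBT a v')
    exact (HL.one (k := k)).congr fun w => Iff.rfl
  have hBs : HL (k + 1) (KStar.kstar (Bad : Language α)) := hB1.star
  let F : Language α := {x | ∃ a : V, x ∈ (R2 C Bad T L2 a * E a : Language α)}
  have hF : HL (k + 1) F :=
    HL.mono (Nat.le_succ k) (HL.iUnion (k := k) (ι := V) (L := fun a => R2 C Bad T L2 a * E a)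
      (fun a => (hR2 a).mul (hE a)))
  have hM : HL (k + 1) (LA v * KStar.kstar K * F) :=
    ((HL.mono (Nat.le_succ k) (hL2 v)).mul hK).mul hF
  refine (hBs.inf ((HL.mono (Nat.le_succ k) (hE v)).add hM)).congr fun w => ?_
  constructor
  · rintro ⟨l, hl, rfl, hf⟩
    refine ⟨Language.mem_kstar.2 ⟨l, rfl, hl⟩, ?_⟩
    have main : ∀ (n : ℕ) (l : List (List α)) (v : V), l.length ≤ n → (∀ X ∈ l, X ∈ Bad) →
        l.foldl T v = v' →
        l.flatten ∈ E v ∨ ∃ P ∈ L2 v, ∃ ks : List (List α), (∀ x ∈ ks, x ∈ K) ∧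
          ∃ Q ∈ F, P ++ ks.flatten ++ Q = l.flatten := by
      intro n
      induction n with
      | zero =>
        intro l v hn _ hf
        have : l = [] := List.length_eq_zero_iff.1 (Nat.le_zero.1 hn)
        subst this
        exact Or.inl (Or.inl ⟨rfl, hf⟩)
      | succ n ih =>
        intro l v hn hl hf
        match l, hn, hl, hf with
        | [], _, _, hf => exact Or.inl (Or.inl ⟨rfl, hf⟩)
        | [X], _, hl, hf =>
          left; right
          refine ⟨?_, ?_⟩
          · simpa using hl X (by simp)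
          · simpa using hf
        | X :: Y :: l, hn, hl, hf =>
          right
          have hX := hl X (by simp)
          have hY := hl Y (by simp)
          obtain ⟨P, Q, e, hP, hQ⟩ := hcc2 X hX Y hY v
          have hf' : l.foldl T (T (T v X) Y) = v' := hf
          have hn' : l.length ≤ n := by simp only [List.length_cons] at hn; omega
          rcases ih l (T (T v X) Y) hn' (fun Z hZ => hl Z (by simp [hZ])) hf' with h |
            ⟨P1, hP1, ks, hks, Q1, hQ1, e1⟩
          · refine ⟨P, hP, [], by simp, Q ++ l.flatten, ⟨T (T v X) Y,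
              Language.mem_mul.2 ⟨Q, hQ, l.flatten, h, rfl⟩⟩, ?_⟩
            rw [List.flatten_cons, List.flatten_cons, ← List.append_assoc X Y, ← e]
            simp [List.append_assoc]
          · refine ⟨P, hP, (Q ++ P1) :: ks, ?_, Q1, hQ1, ?_⟩
            · intro x hx
              rcases List.mem_cons.1 hx with rfl | hx
              · exact ⟨T (T v X) Y, Language.mem_mul.2 ⟨Q, hQ, P1, hP1, rfl⟩⟩
              · exact hks x hx
            · have e2 : (X :: Y :: l).flatten = (P ++ Q) ++ (P1 ++ ks.flatten ++ Q1) := by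
                rw [List.flatten_cons, List.flatten_cons, e1, e, List.append_assoc]
              rw [e2]
              simp [List.append_assoc]
    rcases main l.length l v le_rfl hl hf with h | ⟨P, hP, ks, hks, Q, hQ, e⟩
    · exact Or.inl h
    · right
      exact mem_mul3.2 ⟨P, hP, ks.flatten, Language.mem_kstar.2 ⟨ks, rfl, hks⟩, Q, hQ, e⟩
  · rintro ⟨hw, h⟩
    obtain ⟨l, rfl, hl⟩ := Language.mem_kstar.1 hw
    refine ⟨l, hl, rfl, ?_⟩
    -- one junction inside a product of bad blocks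
    have junc : ∀ (x y : V) (P Q r : List α) (l : List (List α)), P ∈ L2 x →
        Q ∈ R2 C Bad T L2 y → (∀ X ∈ l, X ∈ Bad) → (P ++ Q) ++ r = l.flatten →
        ∃ X Y l', l = X :: Y :: l' ∧ r = l'.flatten ∧ T (T x X) Y = y := by
      intro x y P Q r l hP hQ hl e
      rcases hQ x P hP with ⟨X, hX, Y, hY, e1, hT⟩ | ⟨X, hX, hXb, hp⟩
      · rw [← e1, List.append_assoc] at e
        obtain ⟨l1, rfl, h1⟩ := Core467.PCode.first hC (hBC hX) l (fun Z hZ => hBC (hl Z hZ)) e
        obtain ⟨l2, rfl, h2⟩ := Core467.PCode.first hC hY l1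
          (fun Z hZ => hBC (hl Z (by simp [hZ]))) h1
        exact ⟨X, Y, l2, rfl, h2, hT⟩
      · exfalso
        obtain ⟨t, ht⟩ := hp
        rw [← ht, List.append_assoc] at e
        obtain ⟨l1, rfl, -⟩ := Core467.PCode.first hC hX l (fun Z hZ => hBC (hl Z hZ)) e
        exact hXb (hl X (by simp))
    have endE : ∀ (a : V) (x : List α) (l : List (List α)), x ∈ E a → (∀ X ∈ l, X ∈ Bad) →
        x = l.flatten → l.foldl T a = v' := by
      intro a x l hx hl e
      rcases hx with ⟨h1, h2⟩ | ⟨h1, h2⟩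
      · rw [h1] at e
        cases l with
        | nil => exact h2
        | cons X l =>
          exfalso
          rw [List.flatten_cons] at e
          exact hC.1 ((List.append_eq_nil_iff.1 e.symm).1 ▸ hBC (hl X (by simp)))
      · have e' : x ++ [] = l.flatten := by rw [List.append_nil]; exact e
        obtain ⟨l1, rfl, h3⟩ := Core467.PCode.first hC (hBC h1) l (fun Z hZ => hBC (hl Z hZ)) e'
        cases l1 with
        | nil => exact h2
        | cons X l =>
          exfalso
          rw [List.flatten_cons] at h3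
          exact hC.1 ((List.append_eq_nil_iff.1 h3.symm).1 ▸ hBC (hl X (by simp)))
    rcases h with h | h
    · exact endE v _ l h hl rfl
    · obtain ⟨P, hP, y, hy, Q, hQ, e⟩ := mem_mul3.1 h
      obtain ⟨ks, rfl, hks⟩ := Language.mem_kstar.1 hy
      have main : ∀ (ks : List (List α)) (v : V) (P : List α) (l : List (List α)),
          (∀ x ∈ ks, x ∈ K) → (∀ X ∈ l, X ∈ Bad) → P ∈ L2 v →
          P ++ ks.flatten ++ Q = l.flatten → l.foldl T v = v' := by
        intro ks
        induction ks with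
        | nil =>
          intro v P l _ hl hP e
          obtain ⟨a, ha⟩ := hQ
          obtain ⟨Q1, hQ1, z, hz, rfl⟩ := Language.mem_mul.1 ha
          have e' : (P ++ Q1) ++ z = l.flatten := by rw [← e]; simp
          obtain ⟨X, Y, l', rfl, hr, hT⟩ := junc v a P Q1 z l hP hQ1 hl e'
          rw [List.foldl_cons, List.foldl_cons, hT]
          exact endE a z l' hz (fun Z hZ => hl Z (by simp [hZ])) hr
        | cons y ks ih =>
          intro v P l hks hl hP e
          obtain ⟨a, ha⟩ := hks y (by simp)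
          obtain ⟨Q1, hQ1, P1, hP1, rfl⟩ := Language.mem_mul.1 ha
          have e' : (P ++ Q1) ++ (P1 ++ ks.flatten ++ Q) = l.flatten := by
            rw [← e]; simp [List.append_assoc]
          obtain ⟨X, Y, l', rfl, hr, hT⟩ := junc v a P Q1 _ l hP hQ1 hl e'
          rw [List.foldl_cons, List.foldl_cons, hT]
          exact ih a P1 l' (fun x hx => hks x (by simp [hx])) (fun Z hZ => hl Z (by simp [hZ]))
            hP1 hr
      exact main ks v P l hks hl hP e

/-- **TOP.** -/
theorem top5 {α : Type u} {S V : Type*} [Monoid S] [Finite S] [AddCommGroup V] [Finite V]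
    (act : V → S → V)
    (hadd : ∀ a b s, act (a + b) s = act a s + act b s)
    (hone : ∀ v, act v 1 = v) (hmul : ∀ v s t, act v (s * t) = act (act v s) t)
    (hfaith : ∀ s t, (∀ v, act v s = act v t) → s = t)
    (φ : α → S) (nu : List α → V) (C Bad : Set (List α)) (hC : PCode C) (hBC : Bad ⊆ C)
    (L1 L2 : V → Set (List α)) (hf1 : ∀ v, (L1 v).Finite) (hf2 : ∀ v, (L2 v).Finite)
    (hCT : ∀ x y, HL 1 ({X | X ∈ C ∧ act x (X.map φ).prod + nu X = y} : Language α))
    (hBT : ∀ x y, HL 1 ({X | X ∈ Bad ∧ act x (X.map φ).prod + nu X = y} : Language α))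
    (htail : ∀ s, HL 1 ({w | (∀ X ∈ C, ¬ X <+: w) ∧ (w.map φ).prod = s} : Language α))
    (hcc1 : ∀ X ∈ C, X ∉ Bad → ∀ v, ∃ P Q, P ++ Q = X ∧ P ∈ L1 v ∧
      ∀ x, ∀ P' ∈ L1 x, P' ++ Q ∈ C ∧
        act x ((P' ++ Q).map φ).prod + nu (P' ++ Q) = act v (X.map φ).prod + nu X)
    (hcc2 : ∀ X ∈ Bad, ∀ Y ∈ Bad, ∀ v, ∃ P Q, P ++ Q = X ++ Y ∧ P ∈ L2 v ∧
      ∀ x, ∀ P' ∈ L2 x,
        (∃ X' ∈ Bad, ∃ Y' ∈ C, X' ++ Y' = P' ++ Q ∧
          act (act x (X'.map φ).prod + nu X') (Y'.map φ).prod + nu Y' =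
            act (act v (X.map φ).prod + nu X) (Y.map φ).prod + nu Y) ∨
        (∃ X' ∈ C, X' ∉ Bad ∧ X' <+: P' ++ Q))
    (s : S) : HL 3 ({w | (w.map φ).prod = s} : Language α) := by
  classical
  set T : V → List α → V := fun v X => act v (X.map φ).prod + nu X with hT
  have hB2 : ∀ v v', HL 2 (Lg Bad T v v') := fun v v' =>
    bad_step (k := 1) hC hBC T L2 hf2 hCT hBT
      (fun X hX Y hY v => by
        obtain ⟨P, Q, e, hP, h⟩ := hcc2 X hX Y hY v
        refine ⟨P, Q, e, hP, fun x P' hP' => ?_⟩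
        rcases h x P' hP' with ⟨X', hX', Y', hY', e', ht⟩ | h
        · exact Or.inl ⟨X', hX', Y', hY', e', ht⟩
        · exact Or.inr h) v v'
  have hR1 : ∀ y, HL 1 (R1 C T L1 y) := HL_R1 hf1 hCT
  have hC3 : ∀ v v', HL 3 (Lg C T v v') := fun v v' =>
    star_step (k := 2) C Bad T (fun v => (L1 v : Language α)) (R1 C T L1) hBC
      (fun v v' P Q hP hQ => by
        obtain ⟨h1, h2⟩ := hQ v P hP
        have := Lg.single (T := T) h1 v
        rw [h2] at this
        exact this)
      (fun X hX hXb v => by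
        obtain ⟨P, Q, e, hP, h⟩ := hcc1 X hX hXb v
        exact ⟨P, Q, e, hP, fun x P' hP' => h x P' hP'⟩)
      hB2 (fun v => HL.finite (hf1 v)) (fun y => (hR1 y).mono (by norm_num)) v v'
  have hfib : ∀ s, HL 3 ({w | w ∈ Str C ∧ (w.map φ).prod = s} : Language α) :=
    fibre_of_threads act hadd hone hmul hfaith φ nu C hC.uparse hC3
  let A : S → Language α := fun a => {w | w ∈ Str C ∧ (w.map φ).prod = a}
  let B : S → Language α := fun b => {w | (∀ X ∈ C, ¬ X <+: w) ∧ (w.map φ).prod = b}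
  refine (HL.biUnion (k := 3) (Set.toFinite {p : S × S | p.1 * p.2 = s})
    (L := fun p => A p.1 * B p.2)
    (fun p _ => HL.mul (L := A p.1) (M := B p.2) (hfib p.1)
      ((htail p.2).mono (by norm_num)))).congr fun w => ?_
  constructor
  · intro hw
    obtain ⟨M, E, rfl, hM, hE⟩ := exists_parse hC.1 w
    refine ⟨((M.map φ).prod, (E.map φ).prod), ?_, ?_⟩
    · have hw' : ((M ++ E).map φ).prod = s := hw
      rw [List.map_append, List.prod_append] at hw'
      exact hw'
    · exact Language.mem_mul.2 ⟨M, ⟨hM, rfl⟩, E, ⟨hE, rfl⟩, rfl⟩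
  · rintro ⟨p, hp, hw⟩
    obtain ⟨M, ⟨_, hM⟩, E, ⟨_, hE⟩, rfl⟩ := Language.mem_mul.1 hw
    change ((M ++ E).map φ).prod = s
    rw [List.map_append, List.prod_append, hM, hE]
    exact hp

end Crest.Agent.R320.F122.Top5_120
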