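import Crest.Agent.R320.F122.Wall_291

set_option autoImplicit false

/-!
Row 320: walls on ALL words: far from the walls the word is periodic with one fixed period.
-/

namespace Crest.Agent.R320.F122.WallAll_291

open Crest.Agent.R320.F122.Wall_291 (take_pow)

variable {α : Type*}

/-- the word has no period `p` with `0 < p ≤ W` -/
def NP (W : ℕ) (P : List α) : Prop := ∀ p, 0 < p → p ≤ W → ¬ (P.drop p <+: P)

/-- the wall rule -/
def R (enc : List α → ℕ) (W L : ℕ) (Q : List α) : Prop :=
  2 * W + L ≤ Q.length ∧ NP W ((Q.drop W).take L) ∧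
    ∀ k, k ≤ 2 * W → k ≠ W → NP W ((Q.drop k).take L) →
      enc ((Q.drop W).take L) < enc ((Q.drop k).take L)

theorem R_take (enc : List α → ℕ) (W L : ℕ) (Q : List α) :
    R enc W L Q ↔ R enc W L (Q.take (2 * W + L)) := by
  have key : ∀ k, k ≤ 2 * W →
      ((Q.take (2 * W + L)).drop k).take L = (Q.drop k).take L := by
    intro k hk
    rw [List.drop_take, List.take_take]
    congr 1
    omega
  unfold R
  rw [List.length_take, key W (by omega)]
  constructor
  · rintro ⟨h1, h0, h2⟩
    refine ⟨by omega, h0, fun k hk hkW => ?_⟩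
    rw [key k hk]
    exact h2 k hk hkW
  · rintro ⟨h1, h0, h2⟩
    refine ⟨by omega, h0, fun k hk hkW => ?_⟩
    have := h2 k hk hkW
    rwa [key k hk] at this

theorem R_sep (enc : List α → ℕ) (W L : ℕ) (Q : List α) (h : R enc W L Q) (d : ℕ)
    (hd : 0 < d) (hdW : d ≤ W) : ¬ R enc W L (Q.drop d) := by
  rintro ⟨-, h0, h2⟩
  have e1 : d + W = W + d := by omega
  have e2 : d + (W - d) = W := by omega
  rw [List.drop_drop, e1] at h0
  have a := h.2.2 (W + d) (by omega) (by omega) h0
  have b := h2 (W - d) (by omega) (by omega)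
  rw [List.drop_drop, List.drop_drop, e1, e2] at b
  have b' := b h.2.1
  omega

theorem not_NP_of_eq {W L d : ℕ} {P : List α} (hd : 0 < d) (hdW : d ≤ W)
    (h : P.take L = (P.drop d).take L) : ¬ NP W (P.take L) := by
  intro hNP
  refine hNP d hd hdW ?_
  have h1 : (P.take L).drop d = (P.take L).take (L - d) := by
    rw [List.drop_take]
    conv_rhs => rw [h]
    rw [List.take_take]
    congr 1
    omega
  rw [h1]
  exact List.take_prefix _ _

theorem exists_wall_aux (enc : List α → ℕ) (henc : Function.Injective enc) (W L : ℕ)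
    {Q : List α} :
    ∀ v c : ℕ, enc ((Q.drop c).take L) = v → NP W ((Q.drop c).take L) → W + v * W ≤ c →
      c + v * W + W + L ≤ Q.length →
      ∃ i, R enc W L (Q.drop i) ∧ c ≤ i + W + v * W ∧ i + W ≤ c + v * W := by
  intro v
  induction v using Nat.strong_induction_on with
  | _ v ih =>
    intro c hv hNP hc hlen
    by_cases hmin : ∀ k, k ≤ 2 * W → k ≠ W → NP W ((Q.drop (c - W + k)).take L) →
        enc ((Q.drop c).take L) < enc ((Q.drop (c - W + k)).take L)
    · have e1 : c - W + W = c := by omega
      refine ⟨c - W, ⟨?_, ?_, ?_⟩, by omega, by omega⟩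
      · rw [List.length_drop]; omega
      · rw [List.drop_drop, e1]; exact hNP
      · intro k hk hkW hk'
        rw [List.drop_drop] at hk'
        rw [List.drop_drop, List.drop_drop, e1]
        exact hmin k hk hkW hk'
    · push Not at hmin
      obtain ⟨k, hk, hkW, hNP', hle⟩ := hmin
      set c' := c - W + k with hc'
      have hne : enc ((Q.drop c').take L) ≠ enc ((Q.drop c).take L) := by
        intro heq
        have heq' := henc heq
        rcases lt_or_gt_of_ne (show c' ≠ c by omega) with hlt | hgt
        · refine not_NP_of_eq (W := W) (L := L) (d := c - c') (P := Q.drop c') (by omega)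
            (by omega) ?_ hNP'
          rw [heq', List.drop_drop]
          congr 2
          omega
        · refine not_NP_of_eq (W := W) (L := L) (d := c' - c) (P := Q.drop c) (by omega)
            (by omega) ?_ hNP
          rw [← heq', List.drop_drop]
          congr 2
          omega
      have hlt : enc ((Q.drop c').take L) < v := by omega
      set v' := enc ((Q.drop c').take L) with hv'
      have hmul : v' * W + W ≤ v * W := by
        have : (v' + 1) * W ≤ v * W := Nat.mul_le_mul_right W hlt
        nlinarith
      obtain ⟨i, hi, h1, h2⟩ := ih v' hlt c' rfl hNP' (by omega) (by omega)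
      exact ⟨i, hi, by omega, by omega⟩

/-- a period `p` gives equality of letters at distance any multiple of `p` -/
theorem getElem?_of_per {P : List α} {p : ℕ} (h : P.drop p <+: P) (m i : ℕ)
    (hi : i + m * p < P.length) : P[i]? = P[i + m * p]? := by
  induction m with
  | zero => simp
  | succ m ih =>
    have e1 : i + (m + 1) * p = i + m * p + p := by ring
    rw [e1] at hi ⊢
    rw [ih (by omega)]
    obtain ⟨t, ht⟩ := h
    have h2 : (P.drop p ++ t)[i + m * p]? = (P.drop p)[i + m * p]? :=
      List.getElem?_append_left (by rw [List.length_drop]; omega)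
    rw [ht] at h2
    rw [h2, List.getElem?_drop]
    congr 1
    omega

theorem exists_walls_local (α : Type*) [Finite α] (W : ℕ) :
    ∃ (n D P : ℕ) (R : List α → Prop), 0 < P ∧
      (∀ Q, R Q ↔ R (Q.take n)) ∧
      (∀ Q, R Q → n ≤ Q.length) ∧
      (∀ Q d, R Q → 0 < d → d ≤ W → ¬ R (Q.drop d)) ∧
      (∀ (Q : List α) (i : ℕ), D ≤ i → i + D + n ≤ Q.length →
        (∀ j, i ≤ j + D → j ≤ i + D → ¬ R (Q.drop j)) → Q[i]? = Q[i + P]?) := by
  classical
  have _enc : Encodable α := Encodable.ofCountable α
  let enc : List α → ℕ := Encodable.encode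
  have henc : Function.Injective enc := Encodable.encode_injective
  set L := W.factorial + 1 with hL
  obtain ⟨B, hB⟩ : ∃ B : ℕ, ∀ l : List α, l.length ≤ L → enc l < B := by
    have hfin : {l : List α | l.length ≤ L}.Finite := List.finite_length_le α L
    obtain ⟨B, hB⟩ := (hfin.image enc).bddAbove
    exact ⟨B + 1, fun l hl => Nat.lt_succ_of_le (hB ⟨l, hl, rfl⟩)⟩
  refine ⟨2 * W + L, W + B * W, W.factorial, R enc W L, Nat.factorial_pos W,
    R_take enc W L, fun Q h => h.1,
    fun Q d h hd hdW => R_sep enc W L Q h d hd hdW, ?_⟩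
  intro Q i hi hlen hno
  by_cases hNP : NP W ((Q.drop i).take L)
  · exfalso
    have hv : enc ((Q.drop i).take L) < B := hB _ (by
      rw [List.length_take]; exact min_le_left _ _)
    set v := enc ((Q.drop i).take L) with hvdef
    have hmul : v * W ≤ B * W := Nat.mul_le_mul_right W hv.le
    obtain ⟨j, hj, h1, h2⟩ := exists_wall_aux enc henc W L v i rfl hNP (by omega)
      (by omega)
    exact hno j (by omega) (by omega) hj
  · unfold NP at hNP
    push Not at hNP
    obtain ⟨p, hp, hpW, hper⟩ := hNP
    obtain ⟨m, hm⟩ : p ∣ W.factorial := Nat.dvd_factorial hp hpW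
    have hlenN : ((Q.drop i).take L).length = L := by
      rw [List.length_take, List.length_drop]
      omega
    have := getElem?_of_per hper m 0 (by rw [hlenN, hL, hm]; ring_nf; omega)
    have e1 : 0 + m * p = W.factorial := by rw [hm]; ring
    rw [e1] at this
    rw [List.getElem?_take_of_lt (by omega), List.getElem?_take_of_lt (by omega),
      List.getElem?_drop, List.getElem?_drop] at this
    simpa using this

/-- WALLS ON ALL WORDS, with the decomposition of wall-free words. -/
theorem exists_walls_all (α : Type*) [Finite α] (W : ℕ) :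
    ∃ (n D P C : ℕ) (R : List α → Prop), 0 < P ∧
      (∀ Q, R Q ↔ R (Q.take n)) ∧
      (∀ Q, R Q → n ≤ Q.length) ∧
      (∀ Q d, R Q → 0 < d → d ≤ W → ¬ R (Q.drop d)) ∧
      (∀ (Q : List α) (i : ℕ), D ≤ i → i + D + n ≤ Q.length →
        (∀ j, i ≤ j + D → j ≤ i + D → ¬ R (Q.drop j)) → Q[i]? = Q[i + P]?) ∧
      (∀ Q : List α, (∀ i, i + n ≤ Q.length → ¬ R (Q.drop i)) →
        ∃ (u p v : List α) (k : ℕ), Q = u ++ (List.replicate k p).flatten ++ v ∧
          u.length ≤ C ∧ p.length ≤ C ∧ v.length ≤ C) := by
  obtain ⟨n, D, P, R, hP, hR1, hR2, hR3, hR4⟩ := exists_walls_local α W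
  refine ⟨n, D, P, 2 * D + 2 * P + n, R, hP, hR1, hR2, hR3, hR4, ?_⟩
  intro Q hQ
  by_cases hshort : Q.length ≤ 2 * D + P + n
  · exact ⟨Q, [], [], 0, by simp, by omega, by simp, by simp⟩
  · have hper : ∀ i, D ≤ i → i + D + n ≤ Q.length → Q[i]? = Q[i + P]? := by
      intro i hi hi2
      refine hR4 Q i hi hi2 fun j hj1 hj2 => ?_
      exact hQ j (by omega)
    set P0 := Q.drop D with hP0
    set Lx := Q.length - 2 * D - n with hLx
    have hP0l : P0.length = Q.length - D := by rw [hP0, List.length_drop]
    have htk : P0.take Lx = (P0.drop P).take Lx := by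
      apply List.ext_getElem?
      intro i
      by_cases hi : i < Lx
      · rw [List.getElem?_take_of_lt hi, List.getElem?_take_of_lt hi, List.getElem?_drop,
          hP0, List.getElem?_drop, List.getElem?_drop]
        have := hper (D + i) (by omega) (by omega)
        rw [this]
        congr 1
        omega
      · rw [List.getElem?_take_eq_none (by omega), List.getElem?_take_eq_none (by omega)]
    set k := Lx / P with hk
    have hkP : k * P ≤ Lx := Nat.div_mul_le_self Lx P
    have hkP2 : Lx < k * P + P := by
      have := Nat.lt_div_mul_add hP (a := Lx)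
      rw [hk]; exact this
    have hpow := take_pow htk k (by omega)
    refine ⟨Q.take D, P0.take P, P0.drop (k * P), k, ?_, ?_, ?_, ?_⟩
    · rw [← hpow, List.append_assoc, List.take_append_drop, hP0, List.take_append_drop]
    · rw [List.length_take]; omega
    · rw [List.length_take]; omega
    · rw [List.length_drop, hP0l]; omega

end Crest.Agent.R320.F122.WallAll_291
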